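import Vale.Agent.Lib.P331.Defs

set_option linter.unusedSectionVars false

namespace Vale.Agent.Lib.P331

open Finset
open scoped ENNReal NNReal Classical

variable {E : Type*} [Fintype E] [LinearOrder E]

lemma inf_le_tau {M : Matroid E} {m : ℕ} {v : E → ℝ≥0∞} {I : Finset E}
    (hI : M.Indep (I : Set E)) (hc : I.card = m) : (⨅ e ∈ I, v e) ≤ tau M m v :=
  le_iSup₂_of_le I ⟨hI, hc⟩ le_rfl

lemma tau_le {M : Matroid E} {m : ℕ} {v : E → ℝ≥0∞} {c : ℝ≥0∞}
    (h : ∀ I : Finset E, M.Indep (I : Set E) → I.card = m → (⨅ e ∈ I, v e) ≤ c) :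
    tau M m v ≤ c :=
  iSup₂_le fun I hI => h I hI.1 hI.2

lemma tau_mono (M : Matroid E) (m : ℕ) {v w : E → ℝ≥0∞} (h : ∀ e, v e ≤ w e) :
    tau M m v ≤ tau M m w :=
  iSup₂_mono fun _ _ => iInf₂_mono fun e _ => h e

lemma indep_sub {M : Matroid E} {I J : Finset E} (hI : M.Indep (I : Set E)) (h : J ⊆ I) :
    M.Indep (J : Set E) :=
  hI.subset (by exact_mod_cast h)

lemma inf_sub {v : E → ℝ≥0∞} {I J : Finset E} (h : J ⊆ I) :
    (⨅ e ∈ I, v e) ≤ ⨅ e ∈ J, v e :=
  le_iInf₂ fun e he => iInf₂_le e (h he)

lemma tau_anti (M : Matroid E) (v : E → ℝ≥0∞) {k k' : ℕ} (h : k ≤ k') :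
    tau M k' v ≤ tau M k v := by
  refine tau_le fun I hI hc => ?_
  obtain ⟨J, hJ, hJc⟩ := Finset.exists_subset_card_eq (s := I) (n := k) (by omega)
  exact (inf_sub hJ).trans (inf_le_tau (indep_sub hI hJ) hJc)

lemma tau_attained {M : Matroid E} {m : ℕ} (v : E → ℝ≥0∞)
    (h : ∃ I : Finset E, M.Indep (I : Set E) ∧ I.card = m) :
    ∃ P : Finset E, M.Indep (P : Set E) ∧ P.card = m ∧ tau M m v = ⨅ e ∈ P, v e := by
  obtain ⟨I₀, hI₀⟩ := h
  have hne : (univ.filter fun I : Finset E => M.Indep (I : Set E) ∧ I.card = m).Nonempty :=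
    ⟨I₀, by simpa using hI₀⟩
  obtain ⟨P, hP, hmax⟩ := Finset.exists_max_image _ (fun I : Finset E => ⨅ e ∈ I, v e) hne
  simp only [mem_filter, mem_univ, true_and] at hP hmax
  refine ⟨P, hP.1, hP.2, le_antisymm ?_ (inf_le_tau hP.1 hP.2)⟩
  exact tau_le fun I hI hc => hmax I ⟨hI, hc⟩

/-! ### The online run -/

lemma foldl_mono (M : Matroid E) (P : E → Prop) (l : List E) (A : Finset E) :
    A ⊆ l.foldl (step M P) A := by
  induction l generalizing A with
  | nil => simp
  | cons y l ih =>
    simp only [List.foldl_cons]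
    refine Finset.Subset.trans ?_ (ih _)
    unfold step
    split_ifs
    · exact Finset.subset_insert _ _
    · exact Finset.Subset.refl _

lemma foldl_indep (M : Matroid E) (P : E → Prop) (l : List E) (A : Finset E)
    (hA : M.Indep (A : Set E)) : M.Indep ((l.foldl (step M P) A : Finset E) : Set E) := by
  induction l generalizing A with
  | nil => simpa using hA
  | cons y l ih =>
    simp only [List.foldl_cons]
    apply ih
    unfold step
    split_ifs with h
    · exact h.2
    · exact hA

lemma foldl_elig (M : Matroid E) (P : E → Prop) (l : List E) (A : Finset E)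
    (hA : ∀ e ∈ A, P e) : ∀ e ∈ l.foldl (step M P) A, P e := by
  induction l generalizing A with
  | nil => simpa using hA
  | cons y l ih =>
    simp only [List.foldl_cons]
    apply ih
    unfold step
    split_ifs with h
    · intro e he
      rcases Finset.mem_insert.mp he with rfl | he
      · exact h.1
      · exact hA e he
    · exact hA

lemma foldl_mem (M : Matroid E) (P : E → Prop) (l : List E) (A : Finset E) {x : E}
    (hx : x ∈ l) (hP : P x)
    (hi : M.Indep ((insert x (l.foldl (step M P) A) : Finset E) : Set E)) :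
    x ∈ l.foldl (step M P) A := by
  induction l generalizing A with
  | nil => simp at hx
  | cons y l ih =>
    simp only [List.foldl_cons] at hi ⊢
    by_cases hxl : x ∈ l
    · exact ih _ hxl hi
    · have hxy : x = y := by
        rcases List.mem_cons.mp hx with h | h
        · exact h
        · exact absurd h hxl
      subst hxy
      apply foldl_mono
      unfold step
      have hsub : insert x A ⊆ insert x (l.foldl (step M P) (step M P A x)) :=
        Finset.insert_subset_insert _ (Finset.Subset.trans (by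
          unfold step
          split_ifs
          · exact Finset.subset_insert _ _
          · exact Finset.Subset.refl _) (foldl_mono M P l _))
      rw [if_pos ⟨hP, indep_sub hi hsub⟩]
      exact Finset.mem_insert_self _ _

lemma run_indep (M : Matroid E) (P : E → Prop) (l : List E) :
    M.Indep ((run M P l : Finset E) : Set E) :=
  foldl_indep M P l ∅ (by simp)

lemma run_elig (M : Matroid E) (P : E → Prop) (l : List E) : ∀ e ∈ run M P l, P e :=
  foldl_elig M P l ∅ (by simp)

/-- The run is maximal: any independent subset of the passing elements is no larger. -/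
lemma card_le_run (M : Matroid E) (P : E → Prop) {l : List E} (hl : ∀ e, e ∈ l)
    {J : Finset E} (hJ : M.Indep (J : Set E)) (hP : ∀ e ∈ J, P e) :
    J.card ≤ (run M P l).card := by
  by_contra hlt
  push Not at hlt
  obtain ⟨x, hxJ, hxA, hxi⟩ := (run_indep M P l).augment_finset hJ hlt
  exact hxA (foldl_mem M P l ∅ (hl x) (hP x hxJ) (by simpa [run] using hxi))

/-- If every passing element is worth at least `c` and an independent `J` passes, the run is worth
at least `|J| * c`. -/
lemma card_mul_le_value (M : Matroid E) (P : E → Prop) {l : List E} (hl : ∀ e, e ∈ l)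
    {J : Finset E} (hJ : M.Indep (J : Set E)) (hP : ∀ e ∈ J, P e) (V : E → ℝ≥0∞) (c : ℝ≥0∞)
    (hc : ∀ e, P e → c ≤ V e) :
    (J.card : ℝ≥0∞) * c ≤ ∑ e ∈ run M P l, V e := by
  calc (J.card : ℝ≥0∞) * c ≤ ((run M P l).card : ℝ≥0∞) * c := by
        gcongr ?_ * _; exact_mod_cast card_le_run M P hl hJ hP
    _ = ∑ _e ∈ run M P l, c := by simp
    _ ≤ _ := Finset.sum_le_sum fun e he => hc e (run_elig M P l e he)

end Vale.Agent.Lib.P331
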