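import Mathlib

/-!
# Bounded circumference: the combinatorial core

For a relation `r` on `E` (later a strict total order coming from values), a labelling `σ`
and a label `ℓ`, we define the sets `Free`, `Bad` and the greedy set.  The core facts:
free sets are independent; a good element can be added to a free set; at most `k` labels are
bad for an element when all circuits have at most `k + 1` elements.
-/

namespace Vale.Agent.Lib.P331

open Set

variable {E L κ : Type*}

/-- Elements above `x` with label other than `ℓ`, together with the elements of `X` above `x`. -/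
def topSet (r : E → E → Prop) (σ : E → L) (ℓ : L) (X : Set E) (x : E) : Set E :=
  {z | r x z ∧ σ z ≠ ℓ} ∪ {z | z ∈ X ∧ r x z}

/-- `X` is free: no `x ∈ X` is spanned by the part of `topSet` above it. -/
def Free (M : Matroid E) (r : E → E → Prop) (σ : E → L) (ℓ : L) (X : Set E) : Prop :=
  ∀ x ∈ X, x ∉ M.closure (topSet r σ ℓ X x)

/-- As `topSet`, with the element `e` removed from the first part. -/
def topOff (r : E → E → Prop) (σ : E → L) (ℓ : L) (e : E) (X : Set E) (x : E) : Set E :=
  {z | r x z ∧ σ z ≠ ℓ ∧ z ≠ e} ∪ {z | z ∈ X ∧ r x z}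

/-- The label `ℓ` is bad for `e`: some set `X` of label `ℓ` avoiding `e` is free, and adding
`e` makes a lighter element `x ∈ X` spanned. -/
def Bad (M : Matroid E) (r : E → E → Prop) (σ : E → L) (ℓ : L) (e : E) : Prop :=
  ∃ (X : Set E) (x : E), e ∉ X ∧ (∀ z ∈ X, σ z = ℓ) ∧
    (∀ y ∈ X, y ∉ M.closure (topOff r σ ℓ e X y)) ∧
    x ∈ X ∧ r x e ∧ x ∈ M.closure (insert e (topOff r σ ℓ e X x))

/-- The greedy set of the order `r`: elements not spanned by the elements above them. -/
def greedySet (M : Matroid E) (r : E → E → Prop) : Set E := {e | e ∉ M.closure {z | r e z}}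

variable {M : Matroid E}

theorem Free.indep [Finite E] {K : E → κ} [LinearOrder κ] (hK : Function.Injective K)
    (hE : M.E = univ) {σ : E → L} {ℓ : L} {X : Set E}
    (h : Free M (fun x z => K x < K z) σ ℓ X) : M.Indep X := by
  by_contra hni
  have hdep : M.Dep X := (M.not_indep_iff (hE ▸ subset_univ X)).1 hni
  obtain ⟨C, hCX, hC⟩ := hdep.exists_isCircuit_subset
  obtain ⟨x, hxC, hmin⟩ := Set.exists_min_image C K (Set.toFinite C) hC.nonempty
  have hcl := hC.mem_closure_sdiff_singleton_of_mem hxC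
  refine h x (hCX hxC) (M.closure_subset_closure ?_ hcl)
  intro z hz
  refine Or.inr ⟨hCX hz.1, lt_of_le_of_ne (hmin z hz.1) ?_⟩
  intro hzx
  exact hz.2 (hK hzx).symm

theorem Free.insert_of_good {K : E → κ} [LinearOrder κ] (hK : Function.Injective K)
    {σ : E → L} {ℓ : L} {A : Set E} {e : E}
    (hA : Free M (fun x z => K x < K z) σ ℓ A) (hσA : ∀ z ∈ A, σ z = ℓ) (heA : e ∉ A)
    (hσe : σ e = ℓ) (hB : e ∈ greedySet M (fun x z => K x < K z))
    (hnb : ¬ Bad M (fun x z => K x < K z) σ ℓ e) :
    Free M (fun x z => K x < K z) σ ℓ (insert e A) := by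
  have hoff : ∀ y, topOff (fun x z => K x < K z) σ ℓ e A y =
      topSet (fun x z => K x < K z) σ ℓ A y := by
    intro y
    ext z
    simp only [topOff, topSet, mem_union, Set.mem_ofPred_eq]
    constructor
    · rintro (⟨h1, h2, _⟩ | h)
      · exact Or.inl ⟨h1, h2⟩
      · exact Or.inr h
    · rintro (⟨h1, h2⟩ | h)
      · refine Or.inl ⟨h1, h2, ?_⟩
        rintro rfl
        exact h2 hσe
      · exact Or.inr h
  intro x hx hcl
  rcases hx with rfl | hxA
  · refine hB (M.closure_subset_closure ?_ hcl)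
    rintro z (⟨h1, _⟩ | ⟨_, h1⟩) <;> exact h1
  · have hne : x ≠ e := by
      rintro rfl
      exact heA hxA
    rcases lt_or_gt_of_ne (fun h => hne (hK h)) with hlt | hgt
    · -- `x` is lighter than `e`: this makes `ℓ` bad
      refine hnb ⟨A, x, heA, hσA, ?_, hxA, hlt, ?_⟩
      · intro y hy
        rw [hoff]
        exact hA y hy
      · refine M.closure_subset_closure ?_ hcl
        rw [hoff]
        rintro z (⟨h1, h2⟩ | ⟨h1, h2⟩)
        · exact Or.inr (Or.inl ⟨h1, h2⟩)
        · rcases h1 with rfl | h1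
          · exact Or.inl rfl
          · exact Or.inr (Or.inr ⟨h1, h2⟩)
    · -- `x` is heavier than `e`: nothing changes
      refine hA x hxA (M.closure_subset_closure ?_ hcl)
      rintro z (⟨h1, h2⟩ | ⟨h1, h2⟩)
      · exact Or.inl ⟨h1, h2⟩
      · rcases h1 with rfl | h1
        · exact absurd h2 (not_lt.2 hgt.le)
        · exact Or.inr ⟨h1, h2⟩

theorem bad_update [DecidableEq E] (r : E → E → Prop) (σ : E → L) (ℓ : L) (e : E) (j : L) :
    Bad M r (Function.update σ e j) ℓ e ↔ Bad M r σ ℓ e := by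
  have hT : ∀ X x, topOff r (Function.update σ e j) ℓ e X x = topOff r σ ℓ e X x := by
    intro X x
    ext z
    simp only [topOff, mem_union, Set.mem_ofPred_eq]
    constructor
    · rintro (⟨h1, h2, h3⟩ | h)
      · rw [Function.update_of_ne h3] at h2
        exact Or.inl ⟨h1, h2, h3⟩
      · exact Or.inr h
    · rintro (⟨h1, h2, h3⟩ | h)
      · refine Or.inl ⟨h1, ?_, h3⟩
        rwa [Function.update_of_ne h3]
      · exact Or.inr h
  unfold Bad
  simp only [hT]
  constructor
  · rintro ⟨X, x, h1, h2, h3⟩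
    refine ⟨X, x, h1, ?_, h3⟩
    intro z hz
    have hne : z ≠ e := by
      rintro rfl
      exact h1 hz
    have := h2 z hz
    rwa [Function.update_of_ne hne] at this
  · rintro ⟨X, x, h1, h2, h3⟩
    refine ⟨X, x, h1, ?_, h3⟩
    intro z hz
    have hne : z ≠ e := by
      rintro rfl
      exact h1 hz
    rw [Function.update_of_ne hne]
    exact h2 z hz

/-- At most `k` labels are bad for an element, when all circuits have at most `k + 1` elements. -/
theorem bad_labels [Finite E] [Fintype L] [DecidableEq L] {K : E → κ} [LinearOrder κ]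
    (hK : Function.Injective K) (hE : M.E = univ) {k : ℕ}
    (hcirc : ∀ C, M.IsCircuit C → C.encard ≤ (k : ℕ∞) + 1) (σ : E → L) (e : E) :
    ∃ Y : Finset L, Y.card ≤ k ∧ ∀ ℓ, Bad M (fun x z => K x < K z) σ ℓ e → ℓ ∈ Y := by
  classical
  set Bs : Finset L := Finset.univ.filter fun ℓ => Bad M (fun x z => K x < K z) σ ℓ e with hBs
  by_cases hne : Bs.Nonempty
  swap
  · refine ⟨∅, by simp, fun ℓ hℓ => ?_⟩
    exact absurd ⟨ℓ, by simp [hBs, hℓ]⟩ hne
  have hw : ∀ ℓ, Bad M (fun x z => K x < K z) σ ℓ e → _ := fun ℓ (h : Bad M _ σ ℓ e) => h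
  have : Nonempty E := ⟨e⟩
  choose! X x h1 h2 h3 h4 h5 h6 using hw
  obtain ⟨s, hs, hmax⟩ := Finset.exists_max_image Bs (fun ℓ => K (x ℓ)) hne
  have hsB : Bad M (fun x z => K x < K z) σ s e := by simpa [hBs] using hs
  -- exchange for every bad label
  have hex : ∀ ℓ, Bad M (fun x z => K x < K z) σ ℓ e →
      e ∈ M.closure (insert (x ℓ) (topOff (fun x z => K x < K z) σ ℓ e (X ℓ) (x ℓ))) \
        M.closure (topOff (fun x z => K x < K z) σ ℓ e (X ℓ) (x ℓ)) := by
    intro ℓ hℓ
    exact M.closure_exchange ⟨h6 ℓ hℓ, h3 ℓ hℓ (x ℓ) (h4 ℓ hℓ)⟩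
  -- the basis and the circuit
  set T := topOff (fun x z => K x < K z) σ s e (X s) (x s) with hT
  have hins : insert (x s) T ⊆ M.E := by rw [hE]; exact subset_univ _
  obtain ⟨I, hI⟩ := M.exists_isBasis (insert (x s) T) hins
  have hecl : e ∈ M.closure I := by
    rw [hI.closure_eq_closure]
    exact (hex s hsB).1
  have heI : e ∉ I := by
    intro heI
    rcases hI.subset heI with h | h
    · exact lt_irrefl _ (h ▸ h5 s hsB : K (x s) < K (x s))
    · rcases h with ⟨_, _, h⟩ | ⟨h, _⟩
      · exact h rfl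
      · exact h1 s hsB h
  have hC := hI.indep.fundCircuit_isCircuit hecl heI
  set C := M.fundCircuit e I with hCdef
  have heC : e ∈ C := M.mem_fundCircuit e I
  have hecl' := hC.mem_closure_sdiff_singleton_of_mem heC
  have hCsub : C \ {e} ⊆ insert (x s) T := by
    rintro y ⟨hy, hye⟩
    rcases M.fundCircuit_subset_insert e I hy with h | h
    · exact absurd h hye
    · exact hI.subset h
  have hfin : (C \ {e}).Finite := Set.toFinite _
  refine ⟨hfin.toFinset.image σ, ?_, ?_⟩
  · refine Finset.card_image_le.trans ?_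
    have h := Set.encard_sdiff_singleton_add_one heC
    have hle := hcirc C hC
    rw [← h, ← hfin.cast_ncard_eq] at hle
    rw [← Set.ncard_eq_toFinset_card _ hfin]
    have hle' : (C \ {e}).ncard + 1 ≤ k + 1 := by exact_mod_cast hle
    omega
  · intro ℓ hℓ
    by_contra hnot
    have hnot' : ∀ y ∈ C \ {e}, σ y ≠ ℓ := by
      intro y hy hσ
      exact hnot (Finset.mem_image.2 ⟨y, by simpa using hy, hσ⟩)
    refine (hex ℓ hℓ).2 (M.closure_subset_closure ?_ hecl')
    intro y hy
    have hmx : K (x ℓ) ≤ K (x s) := hmax ℓ (by simp [hBs, hℓ])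
    have hKy : K (x s) ≤ K y := by
      rcases hCsub hy with h | h
      · exact (congrArg K h).ge
      · rcases h with ⟨h, _⟩ | ⟨_, h⟩ <;> exact le_of_lt h
    have hyne : y ≠ x ℓ := by
      rintro rfl
      exact hnot' _ hy (h2 ℓ hℓ _ (h4 ℓ hℓ))
    refine Or.inl ⟨lt_of_le_of_ne (hmx.trans hKy) (fun h => hyne (hK h).symm), hnot' y hy, hy.2⟩

end Vale.Agent.Lib.P331
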