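import Vale.Agent.Lib.P331.Core

/-!
# Counting labellings, and the greedy bound for the optimum
-/

namespace Vale.Agent.Lib.P331

open Finset
open scoped NNReal ENNReal

section counting

variable {E L : Type*} [Fintype E] [DecidableEq E] [Fintype L]

theorem sum_update (e : E) (F : (E → L) → ℕ) :
    ∑ σ : E → L, ∑ j : L, F (Function.update σ e j) = Fintype.card L * ∑ σ, F σ := by
  let τ : (E → L) × L → (E → L) × L := fun p => (Function.update p.1 e p.2, p.1 e)
  have hτ : Function.Involutive τ := by
    rintro ⟨σ, j⟩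
    simp [τ]
  have h := Equiv.sum_comp hτ.toPerm (fun p : (E → L) × L => F p.1)
  simp only [Function.Involutive.coe_toPerm, Fintype.sum_prod_type, τ] at h
  rw [h]
  simp [Finset.mul_sum, Finset.card_univ]

theorem count_ge [DecidableEq L] (e : E) (B : (E → L) → L → Prop)
    (hupd : ∀ σ j ℓ, B (Function.update σ e j) ℓ ↔ B σ ℓ) (k : ℕ)
    (hY : ∀ σ, ∃ Y : Finset L, Y.card ≤ k ∧ ∀ ℓ, B σ ℓ → ℓ ∈ Y) [∀ σ ℓ, Decidable (B σ ℓ)] :
    (Fintype.card L - k) * Fintype.card L ^ Fintype.card E ≤
      Fintype.card L *
        (univ.filter fun ω : (E → L) × L => ω.1 e = ω.2 ∧ ¬ B ω.1 ω.2).card := by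
  have hcount : (univ.filter fun ω : (E → L) × L => ω.1 e = ω.2 ∧ ¬ B ω.1 ω.2).card =
      ∑ σ : E → L, if ¬ B σ (σ e) then 1 else 0 := by
    rw [Finset.card_filter, Fintype.sum_prod_type]
    refine Finset.sum_congr rfl fun σ _ => ?_
    rw [Finset.sum_eq_single (σ e)]
    · simp
    · intro b _ hb
      have : ¬ (σ e = b ∧ ¬ B σ b) := fun h => hb h.1.symm
      simp [this]
    · simp
  rw [hcount, ← sum_update e]
  have hinner : ∀ σ : E → L, Fintype.card L - k ≤ ∑ j : L,
      (if ¬ B (Function.update σ e j) (Function.update σ e j e) then 1 else 0) := by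
    intro σ
    obtain ⟨Y, hYc, hYm⟩ := hY σ
    have hsum : (∑ j : L,
        (if ¬ B (Function.update σ e j) (Function.update σ e j e) then 1 else 0)) =
        (univ.filter fun j : L => ¬ B σ j).card := by
      rw [Finset.card_filter]
      refine Finset.sum_congr rfl fun j _ => ?_
      simp [hupd]
    rw [hsum]
    have hsub : (univ : Finset L) \ Y ⊆ univ.filter fun j : L => ¬ B σ j := by
      intro j hj
      simp only [mem_sdiff, mem_univ, true_and] at hj
      simp only [mem_filter, mem_univ, true_and]
      exact fun h => hj (hYm j h)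
    calc Fintype.card L - k ≤ ((univ : Finset L) \ Y).card := by
          rw [Finset.card_sdiff_of_subset (subset_univ Y), Finset.card_univ]
          omega
      _ ≤ _ := Finset.card_le_card hsub
  calc (Fintype.card L - k) * Fintype.card L ^ Fintype.card E
      = ∑ _σ : E → L, (Fintype.card L - k) := by
        simp [Finset.card_univ, mul_comm]
    _ ≤ _ := Finset.sum_le_sum fun σ _ => hinner σ

end counting

section greedy

variable {E : Type*} [LinearOrder E]

/-- The lexicographic key: value first, then the fixed order of `E`. -/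
def keyOf (a : E → ℝ≥0) (x : E) : ℝ≥0 ×ₗ E := toLex (a x, x)

/-- The comparison pattern of a value vector. -/
def pat (a : E → ℝ≥0) (x z : E) : Prop := keyOf a x < keyOf a z

omit [LinearOrder E] in
theorem keyOf_injective (a : E → ℝ≥0) : Function.Injective (keyOf a) := by
  intro x y h
  have := congrArg (fun p : ℝ≥0 ×ₗ E => (ofLex p).2) h
  simpa [keyOf] using this

theorem pat_iff (a : E → ℝ≥0) (x z : E) : pat a x z ↔ a x < a z ∨ (a x = a z ∧ x < z) := by
  unfold pat keyOf
  exact Prod.Lex.toLex_lt_toLex

/-- The greedy bound. -/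
theorem sum_le_greedy [Fintype E] {M : Matroid E} (hE : M.E = Set.univ) (v : E → ℝ≥0) (I : Finset E)
    (hI : M.Indep (I : Set E)) :
    ∑ e ∈ I, (v e : ℝ≥0∞) ≤
      ∑ e, open Classical in if e ∈ greedySet M (pat v) then (v e : ℝ≥0∞) else 0 := by
  classical
  let rk : E → ℕ := fun z => (univ.filter fun y => keyOf v y < keyOf v z).card
  let Φ : Finset E → ℕ := fun J => ∑ z ∈ J, rk z
  let Cand : Finset (Finset E) := univ.filter fun J =>
    M.Indep (J : Set E) ∧ ∑ e ∈ I, (v e : ℝ≥0∞) ≤ ∑ e ∈ J, (v e : ℝ≥0∞)
  have hne : Cand.Nonempty := ⟨I, by simp [Cand, hI]⟩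
  obtain ⟨J, hJ, hmax⟩ := Finset.exists_max_image Cand Φ hne
  simp only [Cand, mem_filter, mem_univ, true_and] at hJ
  have hsub : ∀ e ∈ J, e ∈ greedySet M (pat v) := by
    intro e heJ
    by_contra hnot
    have hecl : e ∈ M.closure {z | pat v e z} := by simpa [greedySet] using hnot
    have henot := hJ.1.notMem_closure_sdiff_of_mem (e := e) (by simpa using heJ)
    have hexists : ∃ x, pat v e x ∧ x ∉ M.closure ((J : Set E) \ {e}) := by
      by_contra hno
      push Not at hno
      exact henot (M.closure_subset_closure_of_subset_closure (fun z hz => hno z hz) hecl)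
    obtain ⟨x, hpx, hxcl⟩ := hexists
    have hJ0 : M.Indep ((J : Set E) \ {e}) := hJ.1.subset Set.sdiff_subset
    have hins : M.Indep (insert x ((J : Set E) \ {e})) :=
      hJ0.insert_indep_iff.2 (Or.inl ⟨by rw [hE]; exact Set.mem_univ x, hxcl⟩)
    have hxnot : x ∉ J.erase e := by
      intro hx
      apply hxcl
      apply M.subset_closure _ (by rw [hE]; exact Set.subset_univ _)
      simpa [and_comm] using hx
    have hlt : keyOf v e < keyOf v x := hpx
    have hcoe : ((insert x (J.erase e) : Finset E) : Set E) = insert x ((J : Set E) \ {e}) := by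
      ext z
      simp [and_comm]
    have hvle : v e ≤ v x := by
      rcases (pat_iff v e x).1 hpx with h | h
      · exact h.le
      · exact h.1.le
    have hsum1 : ∑ z ∈ J, (v z : ℝ≥0∞) ≤ ∑ z ∈ insert x (J.erase e), (v z : ℝ≥0∞) := by
      rw [Finset.sum_insert hxnot, ← Finset.add_sum_erase J _ heJ]
      gcongr
    have hrk : rk e < rk x := by
      apply Finset.card_lt_card
      refine ⟨?_, ?_⟩
      · intro y hy
        simp only [mem_filter, mem_univ, true_and] at hy ⊢
        exact hy.trans hlt
      · intro hsub'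
        have := hsub' (show e ∈ _ by simp [hlt])
        simp at this
    have hcand : insert x (J.erase e) ∈ Cand := by
      simp only [Cand, mem_filter, mem_univ, true_and]
      refine ⟨by rw [hcoe]; exact hins, hJ.2.trans hsum1⟩
    have := hmax _ hcand
    simp only [Φ] at this
    rw [Finset.sum_insert hxnot, ← Finset.add_sum_erase J _ heJ] at this
    omega
  calc ∑ e ∈ I, (v e : ℝ≥0∞) ≤ ∑ e ∈ J, (v e : ℝ≥0∞) := hJ.2
    _ ≤ ∑ e ∈ univ.filter (fun e => e ∈ greedySet M (pat v)), (v e : ℝ≥0∞) := by
        apply Finset.sum_le_sum_of_subset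
        intro e he
        simp [hsub e he]
    _ = _ := by rw [Finset.sum_filter]

end greedy

end Vale.Agent.Lib.P331
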