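import Mathlib

/-!
# One-sample matroid prophet inequality: the threshold rule

Ground set `E` (finite, with a fixed linear order used only for tie-breaking).  Values live in
`ℝ≥0∞`; in the final theorem they are coercions of `ℝ≥0`-valued random variables.
-/

namespace Vale.Agent.Lib.P331

open Finset
open scoped ENNReal NNReal Classical

variable {E : Type*} [Fintype E] [LinearOrder E]

/-- The rank-`m` threshold of a weight vector `v`: the largest `x` such that some independent set
of exactly `m` elements has all its weights at least `x`. -/
noncomputable def tau (M : Matroid E) (m : ℕ) (v : E → ℝ≥0∞) : ℝ≥0∞ :=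
  ⨆ (I : Finset E) (_ : M.Indep (I : Set E) ∧ I.card = m), ⨅ e ∈ I, v e

/-- The optimum `OPT_M(v)`: the largest total weight of an independent set. -/
noncomputable def opt (M : Matroid E) (v : E → ℝ≥0∞) : ℝ≥0∞ :=
  ⨆ (I : Finset E) (_ : M.Indep (I : Set E)), ∑ e ∈ I, v e

/-- The smallest rank level used by the rule: `max 1 ⌊g/6⌋`. -/
def baseLevel (g : ℕ) : ℕ := max 1 (g / 6)

/-- The number of dyadic rank levels used by the rule. -/
def numLevels (r g : ℕ) : ℕ := Nat.clog 2 ((r + 1) / (3 * baseLevel g) + 2)

/-- The total number of seeds of the rule. -/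
def numSeeds (r g : ℕ) : ℕ := numLevels r g + 2

/-- The online acceptance test of seed `j`, for an arriving element `e` with value `x`, given the
sample vector `S`:
* seed `0`: `x` beats strictly the top sample among non-loops;
* seed `1`: the pair `(x, e)` has fewer than `g/2 - 1` sample pairs `(S f, f)` above it
  (lexicographic comparison, which breaks ties by the fixed order on `E`);
* seed `j + 2`: `x` is at least the rank-level threshold of the samples at level
  `baseLevel g * 2 ^ j`. -/
noncomputable def eligible (M : Matroid E) (g : ℕ) : ℕ → (E → ℝ≥0∞) → E → ℝ≥0∞ → Prop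
  | 0, S, _, x => tau M 1 S < x
  | 1, S, e, x => (univ.filter fun f => toLex (x, e) < toLex (S f, f)).card < g / 2 - 1
  | j + 2, S, _, x => tau M (baseLevel g * 2 ^ j) S ≤ x

/-- One online step of the rule: accept the arriving element `e` iff it passes the test `P` and
keeps the accepted set `A` independent. -/
noncomputable def step (M : Matroid E) (P : E → Prop) (A : Finset E) (e : E) : Finset E :=
  if P e ∧ M.Indep ((insert e A : Finset E) : Set E) then insert e A else A

/-- The accepted set when the elements arrive in the order of the list `l`. -/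
noncomputable def run (M : Matroid E) (P : E → Prop) (l : List E) : Finset E :=
  l.foldl (step M P) ∅

/-- The sample vector `S` of an outcome `ω`, where `ω e = (S e, V e)`. -/
noncomputable def sampleOf (ω : E → ℝ≥0 × ℝ≥0) (e : E) : ℝ≥0∞ := ((ω e).1 : ℝ≥0)

/-- The value vector `V` of an outcome `ω`, where `ω e = (S e, V e)`. -/
noncomputable def valueOf (ω : E → ℝ≥0 × ℝ≥0) (e : E) : ℝ≥0∞ := ((ω e).2 : ℝ≥0)

end Vale.Agent.Lib.P331
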