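import Vale.Agent.Lib.P331.Minor

set_option linter.unusedSectionVars false

namespace Vale.Agent.Lib.P331

open Finset MeasureTheory
open scoped ENNReal NNReal Classical

variable {E : Type*} [Fintype E] [LinearOrder E]

/-- The sample vector when the elements of `U` take their high value as the value. -/
def Sof (H l : E → ℝ≥0∞) (U : Finset E) (e : E) : ℝ≥0∞ := if e ∈ U then l e else H e

/-- The value vector when the elements of `U` take their high value as the value. -/
def Vof (H l : E → ℝ≥0∞) (U : Finset E) (e : E) : ℝ≥0∞ := if e ∈ U then H e else l e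

lemma Sof_le {H l : E → ℝ≥0∞} (hl : ∀ e, l e ≤ H e) (U : Finset E) (e : E) : Sof H l U e ≤ H e := by
  unfold Sof; split_ifs; exacts [hl e, le_rfl]

lemma Vof_le {H l : E → ℝ≥0∞} (hl : ∀ e, l e ≤ H e) (U : Finset E) (e : E) : Vof H l U e ≤ H e := by
  unfold Vof; split_ifs; exacts [le_rfl, hl e]

lemma Sof_of_notMem {H l : E → ℝ≥0∞} {U : Finset E} {e : E} (h : e ∉ U) : Sof H l U e = H e := by
  simp [Sof, h]

lemma Sof_of_mem {H l : E → ℝ≥0∞} {U : Finset E} {e : E} (h : e ∈ U) : Sof H l U e = l e := by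
  simp [Sof, h]

lemma Vof_of_mem {H l : E → ℝ≥0∞} {U : Finset E} {e : E} (h : e ∈ U) : Vof H l U e = H e := by
  simp [Vof, h]

lemma sum_flip (f : Finset E → ℝ≥0∞) (B : Finset E) :
    ∑ U, f (symmDiff U B) = ∑ U, f U := by
  have hinv : Function.Involutive fun U : Finset E => symmDiff U B := fun U =>
    symmDiff_symmDiff_cancel_right B U
  exact Equiv.sum_comp hinv.toPerm f

/-- `U` contains at least half of `P` and misses at least half of `Q`. -/
def Good (P Q U : Finset E) : Prop :=
  P.card ≤ 2 * (P ∩ U).card ∧ Q.card ≤ 2 * (Q \ U).card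

lemma exists_good_flip {P Q : Finset E} (hPQ : Disjoint P Q) (U : Finset E) :
    Good P Q U ∨ Good P Q (symmDiff U P) ∨ Good P Q (symmDiff U Q) ∨
      Good P Q (symmDiff U (P ∪ Q)) := by
  have hd : ∀ x, x ∈ P → x ∉ Q := fun x hx hx' => (Finset.disjoint_left.mp hPQ) hx hx'
  have hP1 : (P ∩ symmDiff U P) = P \ U := by
    ext x; simp only [mem_inter, mem_symmDiff, mem_sdiff]; tauto
  have hP2 : (P ∩ symmDiff U Q) = P ∩ U := by
    ext x; simp only [mem_inter, mem_symmDiff]
    have := hd x; tauto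
  have hP3 : (P ∩ symmDiff U (P ∪ Q)) = P \ U := by
    ext x; simp only [mem_inter, mem_symmDiff, mem_sdiff, mem_union]; tauto
  have hQ1 : (Q \ symmDiff U P) = Q \ U := by
    ext x; simp only [mem_sdiff, mem_symmDiff]
    have := hd x; tauto
  have hQ2 : (Q \ symmDiff U Q) = Q ∩ U := by
    ext x; simp only [mem_sdiff, mem_symmDiff, mem_inter]; tauto
  have hQ3 : (Q \ symmDiff U (P ∪ Q)) = Q ∩ U := by
    ext x; simp only [mem_sdiff, mem_symmDiff, mem_inter, mem_union]; tauto
  have cP := Finset.card_inter_add_card_sdiff P U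
  have cQ := Finset.card_inter_add_card_sdiff Q U
  unfold Good
  rw [hP1, hP2, hP3, hQ1, hQ2, hQ3]
  omega

/-- Averaging over the four flips. -/
lemma avg_good {P Q : Finset E} (hPQ : Disjoint P Q) (f : Finset E → ℝ≥0∞) (c : ℝ≥0∞)
    (h : ∀ U, Good P Q U → c ≤ f U) :
    (2 ^ Fintype.card E : ℝ≥0∞) * c ≤ 4 * ∑ U, f U := by
  have hpt : ∀ U, c ≤ f U + f (symmDiff U P) + f (symmDiff U Q) + f (symmDiff U (P ∪ Q)) := by
    intro U
    rcases exists_good_flip hPQ U with hg | hg | hg | hg
    · exact (h _ hg).trans (by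
        refine le_trans ?_ (le_self_add); refine le_trans ?_ (le_self_add)
        exact le_self_add)
    · exact (h _ hg).trans (by
        refine le_trans ?_ (le_self_add); refine le_trans ?_ (le_self_add)
        exact le_add_self)
    · exact (h _ hg).trans (by
        refine le_trans ?_ (le_self_add); exact le_add_self)
    · exact (h _ hg).trans le_add_self
  have hsum : ∑ _U : Finset E, c ≤ ∑ U, (f U + f (symmDiff U P) + f (symmDiff U Q)
      + f (symmDiff U (P ∪ Q))) := Finset.sum_le_sum fun U _ => hpt U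
  simp only [Finset.sum_add_distrib, sum_flip, Finset.sum_const, Finset.card_univ,
    Fintype.card_finset, nsmul_eq_mul] at hsum
  have h4 : (∑ U, f U + ∑ U, f U + ∑ U, f U + ∑ U, f U) = 4 * ∑ U, f U := by ring
  rw [h4] at hsum
  exact_mod_cast hsum

lemma good_mem {P Q U : Finset E} {e : E} (hP : P = {e}) (h : Good P Q U) : e ∈ U := by
  subst hP
  have h1 := h.1
  by_contra hn
  have : ({e} : Finset E) ∩ U = ∅ := by
    ext x; simp only [mem_inter, mem_singleton, notMem_empty, iff_false]; rintro ⟨rfl, hx⟩; exact hn hx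
  rw [this] at h1
  simp at h1

/-! ### The rank levels -/

lemma level_rank (M : Matroid E) {H l : E → ℝ≥0∞} (hl : ∀ e, l e ≤ H e) (m : ℕ) :
    (2 ^ Fintype.card E : ℝ≥0∞) * ((m : ℝ≥0∞) * tau M (3 * m) H) ≤
      8 * ∑ U, Grank M m (Sof H l U) (Vof H l U) := by
  by_cases hex : ∃ I : Finset E, M.Indep (I : Set E) ∧ I.card = 3 * m
  · obtain ⟨I, hI, hIc, hτ⟩ := tau_attained H hex
    obtain ⟨P₀, hP₀, hP₀c⟩ := Finset.exists_subset_card_eq (s := I) (n := m) (by omega)
    obtain ⟨P, hP, hPc, hτP⟩ := tau_attained (M := M) (m := m) H ⟨P₀, indep_sub hI hP₀, hP₀c⟩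
    set z := ⨅ e ∈ I, H e with hz
    have hdisj : Disjoint P (I \ P) := Finset.disjoint_sdiff
    have hI' : 2 * m ≤ (I \ P).card := by
      have := Finset.le_card_sdiff P I
      omega
    have key := avg_good hdisj (fun U => Grank M m (Sof H l U) (Vof H l U))
      ((((m + 1) / 2 : ℕ) : ℝ≥0∞) * z) (by
        intro U hU
        obtain ⟨h1, h2⟩ := hU
        obtain ⟨J, hJ, hJc⟩ := Finset.exists_subset_card_eq (s := P ∩ U) (n := (m + 1) / 2)
          (by omega)
        obtain ⟨J', hJ', hJ'c⟩ := Finset.exists_subset_card_eq (s := (I \ P) \ U) (n := m)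
          (by omega)
        have hJ'I : J' ⊆ I := fun x hx =>
          (Finset.mem_sdiff.mp (Finset.mem_sdiff.mp (hJ' hx)).1).1
        have hzS : z ≤ tau M m (Sof H l U) := by
          refine le_trans (le_iInf₂ fun e he => ?_) (inf_le_tau (indep_sub hI hJ'I) hJ'c)
          rw [Sof_of_notMem (Finset.mem_sdiff.mp (hJ' he)).2]
          exact iInf₂_le e (hJ'I he)
        have hSV : ∀ e ∈ J, tau M m (Sof H l U) ≤ Vof H l U e := by
          intro e he
          have heP := (Finset.mem_inter.mp (hJ he)).1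
          have heU := (Finset.mem_inter.mp (hJ he)).2
          rw [Vof_of_mem heU]
          calc tau M m (Sof H l U) ≤ tau M m H := tau_mono M m (Sof_le hl U)
            _ = ⨅ e ∈ P, H e := hτP
            _ ≤ H e := iInf₂_le e heP
        have hJi : M.Indep (J : Set E) :=
          indep_sub hP fun x hx => (Finset.mem_inter.mp (hJ hx)).1
        show _ ≤ Grank M m (Sof H l U) (Vof H l U)
        unfold Grank
        rw [if_pos ⟨J, hJi, hJc, hSV⟩]
        gcongr)
    rw [hτ]
    have hm2 : (m : ℝ≥0∞) ≤ 2 * (((m + 1) / 2 : ℕ) : ℝ≥0∞) := by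
      have : m ≤ 2 * ((m + 1) / 2) := by omega
      exact_mod_cast this
    calc (2 ^ Fintype.card E : ℝ≥0∞) * ((m : ℝ≥0∞) * z)
        ≤ (2 ^ Fintype.card E : ℝ≥0∞) * ((2 * (((m + 1) / 2 : ℕ) : ℝ≥0∞)) * z) := by
          gcongr
      _ = 2 * ((2 ^ Fintype.card E : ℝ≥0∞) * ((((m + 1) / 2 : ℕ) : ℝ≥0∞) * z)) := by ring
      _ ≤ 2 * (4 * ∑ U, Grank M m (Sof H l U) (Vof H l U)) := by gcongr
      _ = _ := by ring
  · have : tau M (3 * m) H = 0 := by
      refine le_antisymm (tau_le fun I hI hc => absurd ⟨I, hI, hc⟩ hex) zero_le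
    simp [this]

end Vale.Agent.Lib.P331
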