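import Vale.Agent.Lib.P331.Rule

/-!
# The bounded circumference theorem
-/

namespace Vale.Agent.Lib.P331

open Finset MeasureTheory
open scoped NNReal ENNReal

variable {E L : Type*} [LinearOrder E]

/-- The optimum of a value vector: the largest total value of an independent set. -/
noncomputable def OPT (M : Matroid E) (v : E → ℝ≥0) : ℝ≥0∞ :=
  ⨆ (I : Finset E) (_ : M.Indep (I : Set E)), ∑ e ∈ I, (v e : ℝ≥0∞)

/-- Seeds of the rule for circuits with at most `k + 1` elements: a labelling of the elements by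
`2 k` labels, and one label. -/
abbrev Seed (E : Type*) (k : ℕ) : Type _ := (E → Fin (2 * k)) × Fin (2 * k)

variable [Fintype E]

omit [Fintype E] in
theorem measurable_pat [Finite E] : Measurable (pat : (E → ℝ≥0) → E → E → Prop) := by
  refine measurable_pi_lambda _ fun x => measurable_pi_lambda _ fun z => ?_
  refine measurableSet_setOfPred.1 ?_
  have : {a : E → ℝ≥0 | pat a x z} =
      {a | a x < a z} ∪ ({a | a x = a z} ∩ {_a | x < z}) := by
    ext a
    simp only [Set.mem_ofPred_eq, Set.mem_union, Set.mem_inter_iff]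
    exact pat_iff a x z
  rw [this]
  exact (measurableSet_lt (measurable_pi_apply x) (measurable_pi_apply z)).union
    ((measurableSet_eq_fun (measurable_pi_apply x) (measurable_pi_apply z)).inter
      (MeasurableSet.const _))

theorem measurableSet_pat (P : (E → E → Prop) → Prop) :
    MeasurableSet {a : E → ℝ≥0 | P (pat a)} :=
  measurable_pat (MeasurableSet.of_discrete (s := {R | P R}))

variable [DecidableEq L]

omit [LinearOrder E] [Fintype E] in
theorem measurable_merged (σ : E → L) (ρ : L) :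
    Measurable fun p : (E → ℝ≥0) × (E → ℝ≥0) => merged σ ρ p.2 p.1 := by
  refine measurable_pi_lambda _ fun z => ?_
  by_cases h : σ z = ρ
  · have : (fun p : (E → ℝ≥0) × (E → ℝ≥0) => merged σ ρ p.2 p.1 z) = fun p => p.1 z := by
      funext p
      simp [merged, h]
    rw [this]
    exact (measurable_pi_apply z).comp measurable_fst
  · have : (fun p : (E → ℝ≥0) × (E → ℝ≥0) => merged σ ρ p.2 p.1 z) = fun p => p.2 z := by
      funext p
      simp [merged, h]
    rw [this]
    exact (measurable_pi_apply z).comp measurable_snd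

theorem map_merged (D : E → Measure ℝ≥0) [∀ e, IsProbabilityMeasure (D e)] (σ : E → L) (ρ : L) :
    Measure.map (fun p : (E → ℝ≥0) × (E → ℝ≥0) => merged σ ρ p.2 p.1)
      ((Measure.pi D).prod (Measure.pi D)) = Measure.pi D := by
  symm
  refine Measure.pi_eq fun s hs => ?_
  rw [Measure.map_apply (measurable_merged σ ρ) (MeasurableSet.univ_pi hs)]
  have hpre : (fun p : (E → ℝ≥0) × (E → ℝ≥0) => merged σ ρ p.2 p.1) ⁻¹' Set.pi Set.univ s =
      Set.pi Set.univ (fun z => if σ z = ρ then s z else Set.univ) ×ˢ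
        Set.pi Set.univ (fun z => if σ z = ρ then Set.univ else s z) := by
    ext ⟨V, S⟩
    simp only [Set.mem_preimage, Set.mem_pi, Set.mem_univ, forall_const, Set.mem_prod, merged]
    constructor
    · intro h
      refine ⟨fun z => ?_, fun z => ?_⟩
      · have := h z
        by_cases hz : σ z = ρ <;> simp_all
      · have := h z
        by_cases hz : σ z = ρ <;> simp_all
    · rintro ⟨h1, h2⟩ z
      have h3 := h1 z
      have h4 := h2 z
      by_cases hz : σ z = ρ <;> simp_all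
  rw [hpre, Measure.prod_prod, Measure.pi_pi, Measure.pi_pi, ← Finset.prod_mul_distrib]
  refine Finset.prod_congr rfl fun z _ => ?_
  by_cases hz : σ z = ρ <;> simp [hz]

open Classical in
/-- The value the rule is guaranteed to collect. -/
noncomputable def gain (M : Matroid E) (ω : (E → L) × L) (v : E → ℝ≥0) : ℝ≥0∞ :=
  ∑ e, if e ∈ greedySet M (pat v) ∧ ω.1 e = ω.2 ∧ ¬ Bad M (pat v) ω.1 ω.2 e
    then (v e : ℝ≥0∞) else 0

theorem measurable_gain (M : Matroid E) (ω : (E → L) × L) : Measurable (gain M ω) := by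
  classical
  refine Finset.measurable_sum _ fun e _ => ?_
  refine Measurable.ite ?_ (measurable_coe_nnreal_ennreal.comp (measurable_pi_apply e))
    measurable_const
  exact measurableSet_pat fun R => e ∈ greedySet M R ∧ ω.1 e = ω.2 ∧ ¬ Bad M R ω.1 ω.2 e

omit [Fintype E] in
theorem inv_start (M : Matroid E) (S : E → ℝ≥0) (σ : E → L) (ρ : L) (V : E → ℝ≥0) :
    Inv M S σ ρ V (stOf M S (σ, ρ) []) := by
  refine ⟨?_, ?_⟩
  · intro z hz
    simp [stOf] at hz
  · intro x hx
    simp [stOf] at hx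

theorem gain_le (M : Matroid E) (S V : E → ℝ≥0) (ω : (E → L) × L) (order : List E)
    (hord : ∀ e, e ∈ order) :
    gain M ω (merged ω.1 ω.2 S V) ≤ ∑ e ∈ accepted (ruleOf M) S ω V order, (V e : ℝ≥0∞) := by
  classical
  obtain ⟨σ, ρ⟩ := ω
  obtain ⟨-, h2, -⟩ := run_main S σ ρ V order [] (inv_start M S σ ρ V)
  have hempty : (stOf M S (σ, ρ) []).1 = ∅ := rfl
  rw [hempty, empty_union] at h2
  unfold gain accepted
  rw [← Finset.sum_filter]
  calc _ = ∑ e ∈ univ.filter (fun e => e ∈ greedySet M (pat (merged σ ρ S V)) ∧ σ e = ρ ∧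
            ¬ Bad M (pat (merged σ ρ S V)) σ ρ e), (V e : ℝ≥0∞) := by
        refine Finset.sum_congr rfl fun e he => ?_
        simp only [mem_filter, mem_univ, true_and] at he
        simp [merged, he.2.1]
    _ ≤ _ := by
        apply Finset.sum_le_sum_of_subset
        intro e he
        simp only [mem_filter, mem_univ, true_and] at he
        exact h2 e (hord e) he.1 he.2.1 he.2.2

/-- The fundamental count for the seeds. -/
theorem seed_count {M : Matroid E} (hE : M.E = Set.univ) {k : ℕ} (hk : 1 ≤ k)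
    (hcirc : ∀ C, M.IsCircuit C → C.encard ≤ (k : ℕ∞) + 1) (v : E → ℝ≥0) (e : E)
    [DecidablePred fun ω : Seed E k => ω.1 e = ω.2 ∧ ¬ Bad M (pat v) ω.1 ω.2 e] :
    Fintype.card (Seed E k) ≤ 4 * k *
      (univ.filter fun ω : Seed E k => ω.1 e = ω.2 ∧ ¬ Bad M (pat v) ω.1 ω.2 e).card := by
  classical
  have h := count_ge (L := Fin (2 * k)) e (fun σ ℓ => Bad M (pat v) σ ℓ e)
    (fun σ j ℓ => bad_update (pat v) σ ℓ e j) k
    (fun σ => bad_labels (keyOf_injective v) hE hcirc σ e)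
  simp only [Fintype.card_fin] at h
  have hc : Fintype.card (Seed E k) = (2 * k) ^ Fintype.card E * (2 * k) := by
    simp [Seed, Fintype.card_prod]
  rw [hc]
  set P := (2 * k) ^ Fintype.card E
  set c := (univ.filter fun ω : Seed E k => ω.1 e = ω.2 ∧ ¬ Bad M (pat v) ω.1 ω.2 e).card
  have h2k : 2 * k - k = k := by omega
  rw [h2k] at h
  have h : k * P ≤ 2 * k * c := by
    convert h using 3
    ext ω
    simp only [mem_filter]
  have hP : P ≤ 2 * c := by
    have h' : k * P ≤ k * (2 * c) := by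
      calc k * P ≤ 2 * k * c := h
        _ = k * (2 * c) := by ring
    exact Nat.le_of_mul_le_mul_left h' (by omega)
  calc P * (2 * k) ≤ (2 * c) * (2 * k) := Nat.mul_le_mul_right _ hP
    _ = 4 * k * c := by ring

/-- Pointwise: the optimum is bounded by the average of the gains over all seeds. -/
theorem opt_le_gain {M : Matroid E} (hE : M.E = Set.univ) {k : ℕ} (hk : 1 ≤ k)
    (hcirc : ∀ C, M.IsCircuit C → C.encard ≤ (k : ℕ∞) + 1) (v : E → ℝ≥0) :
    (Fintype.card (Seed E k) : ℝ≥0∞) * OPT M v ≤ (4 * k) * ∑ ω : Seed E k, gain M ω v := by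
  classical
  have hopt : OPT M v ≤ ∑ e, if e ∈ greedySet M (pat v) then (v e : ℝ≥0∞) else 0 := by
    refine iSup₂_le fun I hI => ?_
    exact sum_le_greedy hE v I hI
  refine (mul_le_mul_right hopt _).trans ?_
  unfold gain
  rw [Finset.sum_comm, Finset.mul_sum, Finset.mul_sum]
  refine Finset.sum_le_sum fun e _ => ?_
  by_cases he : e ∈ greedySet M (pat v)
  · have hsum : (∑ ω : Seed E k, if e ∈ greedySet M (pat v) ∧ ω.1 e = ω.2 ∧
        ¬ Bad M (pat v) ω.1 ω.2 e then (v e : ℝ≥0∞) else 0) =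
        ((univ.filter fun ω : Seed E k => ω.1 e = ω.2 ∧ ¬ Bad M (pat v) ω.1 ω.2 e).card : ℝ≥0∞)
          * v e := by
      rw [← nsmul_eq_mul, ← Finset.sum_const, Finset.sum_filter]
      refine Finset.sum_congr rfl fun ω _ => ?_
      simp [he]
    rw [hsum, if_pos he, ← mul_assoc]
    refine mul_le_mul_left ?_ _
    exact_mod_cast seed_count hE hk hcirc v e
  · simp [he]

/-- The theorem on the explicit rule. -/
theorem main_bound {M : Matroid E} (hE : M.E = Set.univ) {k : ℕ} (hk : 1 ≤ k)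
    (hcirc : ∀ C, M.IsCircuit C → C.encard ≤ (k : ℕ∞) + 1)
    (D : E → Measure ℝ≥0) [∀ e, IsProbabilityMeasure (D e)]
    (adv : Seed E k → (E → ℝ≥0) → (E → ℝ≥0) → List E)
    (hadv : ∀ ω V S, ∀ e, e ∈ adv ω V S) :
    ∫⁻ v, OPT M v ∂(Measure.pi D) ≤
      (4 * k) * ((Fintype.card (Seed E k) : ℝ≥0∞)⁻¹ * ∑ ω : Seed E k,
        ∫⁻ p : (E → ℝ≥0) × (E → ℝ≥0),
          ∑ e ∈ accepted (ruleOf M) p.2 ω p.1 (adv ω p.1 p.2), (p.1 e : ℝ≥0∞)
          ∂((Measure.pi D).prod (Measure.pi D))) := by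
  classical
  set μ := Measure.pi D with hμ
  set ν := μ.prod μ with hν
  have hstep : ∀ ω : Seed E k, ∫⁻ v, gain M ω v ∂μ ≤
      ∫⁻ p : (E → ℝ≥0) × (E → ℝ≥0),
        ∑ e ∈ accepted (ruleOf M) p.2 ω p.1 (adv ω p.1 p.2), (p.1 e : ℝ≥0∞) ∂ν := by
    intro ω
    calc ∫⁻ v, gain M ω v ∂μ
        = ∫⁻ v, gain M ω v ∂(Measure.map
            (fun p : (E → ℝ≥0) × (E → ℝ≥0) => merged ω.1 ω.2 p.2 p.1) ν) := by
          rw [hν, hμ, map_merged D ω.1 ω.2]
      _ ≤ ∫⁻ p, gain M ω (merged ω.1 ω.2 p.2 p.1) ∂ν := lintegral_map_le _ _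
      _ ≤ _ := lintegral_mono fun p => gain_le M p.2 p.1 ω _ (hadv ω p.1 p.2)
  have hcard : (Fintype.card (Seed E k) : ℝ≥0∞) ≠ 0 := by
    have : Fintype.card (Seed E k) ≠ 0 := by
      have : Nonempty (Fin (2 * k)) := ⟨⟨0, by omega⟩⟩
      exact Fintype.card_ne_zero
    exact_mod_cast this
  have hcard' : (Fintype.card (Seed E k) : ℝ≥0∞) ≠ ∞ := ENNReal.natCast_ne_top _
  have h4k : (4 * (k : ℝ≥0∞)) ≠ ∞ := ENNReal.mul_ne_top (by simp) (ENNReal.natCast_ne_top _)
  have hmain : (Fintype.card (Seed E k) : ℝ≥0∞) * ∫⁻ v, OPT M v ∂μ ≤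
      (4 * k) * ∑ ω : Seed E k, ∫⁻ v, gain M ω v ∂μ := by
    rw [← lintegral_const_mul' _ _ hcard',
      ← lintegral_finsetSum _ (fun ω _ => measurable_gain M ω),
      ← lintegral_const_mul' _ _ h4k]
    exact lintegral_mono fun v => opt_le_gain hE hk hcirc v
  calc ∫⁻ v, OPT M v ∂μ
      = (Fintype.card (Seed E k) : ℝ≥0∞)⁻¹ *
          ((Fintype.card (Seed E k) : ℝ≥0∞) * ∫⁻ v, OPT M v ∂μ) := by
        rw [ENNReal.inv_mul_cancel_left hcard hcard']
    _ ≤ (Fintype.card (Seed E k) : ℝ≥0∞)⁻¹ *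
          ((4 * k) * ∑ ω : Seed E k, ∫⁻ v, gain M ω v ∂μ) := by
        gcongr
    _ = (4 * k) * ((Fintype.card (Seed E k) : ℝ≥0∞)⁻¹ *
          ∑ ω : Seed E k, ∫⁻ v, gain M ω v ∂μ) := by
        ring
    _ ≤ _ := by
        gcongr with ω _
        exact hstep ω

/-- Independence of the accepted set. -/
theorem accepted_indep {M : Matroid E} (hE : M.E = Set.univ) (S V : E → ℝ≥0) (ω : (E → L) × L)
    (order : List E) : M.Indep (accepted (ruleOf M) S ω V order : Set E) := by
  obtain ⟨σ, ρ⟩ := ω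
  obtain ⟨h1, -, -⟩ := run_main S σ ρ V order [] (inv_start M S σ ρ V)
  have hempty : (stOf M S (σ, ρ) []).1 = ∅ := rfl
  rw [hempty, empty_union] at h1
  exact Free.indep (keyOf_injective _) hE h1

/-- Measurability of the accepted set for a fixed list. -/
theorem accepted_measurable (M : Matroid E) (ω : (E → L) × L) (order : List E) (A : Finset E) :
    MeasurableSet {p : (E → ℝ≥0) × (E → ℝ≥0) | accepted (ruleOf M) p.2 ω p.1 order = A} := by
  obtain ⟨σ, ρ⟩ := ω
  have hset : {p : (E → ℝ≥0) × (E → ℝ≥0) | accepted (ruleOf M) p.2 (σ, ρ) p.1 order = A} =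
      (fun p : (E → ℝ≥0) × (E → ℝ≥0) => merged σ ρ p.2 p.1) ⁻¹'
        {a | pureRun M σ ρ (pat a) ∅ order = A} := by
    ext p
    obtain ⟨-, -, h3⟩ := run_main p.2 σ ρ p.1 order [] (inv_start M p.2 σ ρ p.1)
    simp only [Set.mem_ofPred_eq, Set.mem_preimage, accepted]
    rw [h3]
    rfl
  rw [hset]
  exact measurable_merged σ ρ (measurableSet_pat fun R => pureRun M σ ρ R ∅ order = A)

end Vale.Agent.Lib.P331
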