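import Vale.Agent.Lib.P331.Basic

set_option linter.unusedSectionVars false

namespace Vale.Agent.Lib.P331

open Finset MeasureTheory
open scoped ENNReal NNReal Classical

variable {E : Type*} [Fintype E] [LinearOrder E]

/-- Measurable lower bound for the value of a rank-level seed. -/
noncomputable def Grank (M : Matroid E) (m : ℕ) (S V : E → ℝ≥0∞) : ℝ≥0∞ :=
  if ∃ J : Finset E, M.Indep (J : Set E) ∧ J.card = (m + 1) / 2 ∧ ∀ e ∈ J, tau M m S ≤ V e then
    (((m + 1) / 2 : ℕ) : ℝ≥0∞) * tau M m S
  else 0

/-- Measurable lower bound for the value of the strict single-item seed. -/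
noncomputable def Gsingle (M : Matroid E) (S V : E → ℝ≥0∞) : ℝ≥0∞ :=
  if ∃ e : E, M.Indep (({e} : Finset E) : Set E) ∧ tau M 1 S < V e then
    ⨅ e : E, if M.Indep (({e} : Finset E) : Set E) ∧ tau M 1 S < V e then V e else ⊤
  else 0

/-- The test of seed `1`, in terms of the vectors `S`, `V`. -/
def topElig (g : ℕ) (S V : E → ℝ≥0∞) (e : E) : Prop :=
  (univ.filter fun f => toLex (V e, e) < toLex (S f, f)).card < g / 2 - 1

/-- Measurable lower bound for the value of seed `1`. -/
noncomputable def Gtop (g : ℕ) (S V : E → ℝ≥0∞) : ℝ≥0∞ :=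
  if (univ.filter (topElig g S V)).card < g then
    ∑ e, if topElig g S V e then V e else 0
  else 0

/-- The lower bound for each seed. -/
noncomputable def Gfun (M : Matroid E) (g : ℕ) : ℕ → (E → ℝ≥0∞) → (E → ℝ≥0∞) → ℝ≥0∞
  | 0, S, V => Gsingle M S V
  | 1, S, V => Gtop g S V
  | j + 2, S, V => Grank M (baseLevel g * 2 ^ j) S V

lemma Grank_le_value (M : Matroid E) (g j : ℕ) (S V : E → ℝ≥0∞) {l : List E} (hl : ∀ e, e ∈ l) :
    Grank M (baseLevel g * 2 ^ j) S V ≤
      ∑ e ∈ run M (fun e => eligible M g (j + 2) S e (V e)) l, V e := by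
  unfold Grank
  split_ifs with h
  · obtain ⟨J, hJ, hc, hJV⟩ := h
    rw [← hc]
    exact card_mul_le_value M _ hl hJ (fun e he => hJV e he) V _ (fun e he => he)
  · exact zero_le

lemma Gsingle_le_value (M : Matroid E) (g : ℕ) (S V : E → ℝ≥0∞) {l : List E} (hl : ∀ e, e ∈ l) :
    Gsingle M S V ≤ ∑ e ∈ run M (fun e => eligible M g 0 S e (V e)) l, V e := by
  unfold Gsingle
  split_ifs with h
  · obtain ⟨e, he, het⟩ := h
    have hc : ({e} : Finset E).card ≤ (run M (fun e => eligible M g 0 S e (V e)) l).card :=
      card_le_run M _ hl he (by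
        intro x hx
        rw [Finset.mem_singleton] at hx
        subst hx
        exact het)
    have hne : (run M (fun e => eligible M g 0 S e (V e)) l).Nonempty := by
      rw [← Finset.card_pos]
      simpa using hc
    obtain ⟨x, hx⟩ := hne
    have hxi : M.Indep (({x} : Finset E) : Set E) :=
      indep_sub (run_indep M _ l) (by simpa using hx)
    have hxe : tau M 1 S < V x := run_elig M _ l x hx
    calc (⨅ e : E, if M.Indep (({e} : Finset E) : Set E) ∧ tau M 1 S < V e then V e else ⊤)
        ≤ (if M.Indep (({x} : Finset E) : Set E) ∧ tau M 1 S < V x then V x else ⊤) := iInf_le _ x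
      _ = V x := if_pos ⟨hxi, hxe⟩
      _ ≤ _ := Finset.single_le_sum (f := V) (fun _ _ => zero_le) hx
  · exact zero_le

lemma Gtop_le_value (M : Matroid E) (g : ℕ)
    (hg : ∀ I : Finset E, I.card < g → M.Indep (I : Set E))
    (S V : E → ℝ≥0∞) {l : List E} (hl : ∀ e, e ∈ l) :
    Gtop g S V ≤ ∑ e ∈ run M (fun e => eligible M g 1 S e (V e)) l, V e := by
  unfold Gtop
  split_ifs with h
  · set J := univ.filter (topElig g S V) with hJdef
    have hJ : M.Indep (J : Set E) := hg J h
    have hsub : run M (fun e => eligible M g 1 S e (V e)) l ⊆ J := by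
      intro e he
      have := run_elig M _ l e he
      simpa [hJdef, topElig, eligible] using this
    have hcard : J.card ≤ (run M (fun e => eligible M g 1 S e (V e)) l).card :=
      card_le_run M _ hl hJ (by
        intro e he
        have : topElig g S V e := by simpa [hJdef] using he
        exact this)
    have heq := Finset.eq_of_subset_of_card_le hsub hcard
    rw [heq, hJdef, Finset.sum_filter]
  · exact zero_le

lemma Gfun_le_value (M : Matroid E) (g : ℕ)
    (hg : ∀ I : Finset E, I.card < g → M.Indep (I : Set E))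
    (j : ℕ) (S V : E → ℝ≥0∞) {l : List E} (hl : ∀ e, e ∈ l) :
    Gfun M g j S V ≤ ∑ e ∈ run M (fun e => eligible M g j S e (V e)) l, V e := by
  match j with
  | 0 => exact Gsingle_le_value M g S V hl
  | 1 => exact Gtop_le_value M g hg S V hl
  | j + 2 => exact Grank_le_value M g j S V hl

/-! ### Measurability -/

lemma measurable_tau (M : Matroid E) (m : ℕ) : Measurable (tau M m) := by
  unfold tau
  refine Measurable.iSup fun I => Measurable.iSup fun _ => Measurable.iInf fun e =>
    Measurable.iInf fun _ => measurable_pi_apply e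

lemma measurable_opt (M : Matroid E) : Measurable (opt M) := by
  unfold opt
  refine Measurable.iSup fun I => Measurable.iSup fun _ => ?_
  exact Finset.measurable_sum _ fun e _ => measurable_pi_apply e

abbrev SV (E : Type*) := (E → ℝ≥0∞) × (E → ℝ≥0∞)

lemma measurable_S (e : E) : Measurable fun p : SV E => p.1 e :=
  (measurable_pi_apply e).comp measurable_fst

lemma measurable_V (e : E) : Measurable fun p : SV E => p.2 e :=
  (measurable_pi_apply e).comp measurable_snd

lemma measurable_Grank (M : Matroid E) (m : ℕ) :
    Measurable fun p : SV E => Grank M m p.1 p.2 := by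
  unfold Grank
  have ht : Measurable fun p : SV E => tau M m p.1 := (measurable_tau M m).comp measurable_fst
  refine Measurable.ite ?_ (measurable_const.mul ht) measurable_const
  have : {p : SV E | ∃ J : Finset E, M.Indep (J : Set E) ∧ J.card = (m + 1) / 2 ∧
      ∀ e ∈ J, tau M m p.1 ≤ p.2 e} = ⋃ (J : Finset E), ⋃ (_ : M.Indep (J : Set E) ∧ J.card = (m + 1) / 2),
        ⋂ e ∈ J, {p : SV E | tau M m p.1 ≤ p.2 e} := by
    ext p
    simp only [Set.mem_ofPred_eq, Set.mem_iUnion, Set.mem_iInter, exists_prop]
    constructor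
    · rintro ⟨J, h1, h2, h3⟩; exact ⟨J, ⟨h1, h2⟩, h3⟩
    · rintro ⟨J, ⟨h1, h2⟩, h3⟩; exact ⟨J, h1, h2, h3⟩
  rw [this]
  refine MeasurableSet.iUnion fun J => MeasurableSet.iUnion fun _ =>
    Finset.measurableSet_biInter _ fun e _ => measurableSet_le ht (measurable_V e)

lemma ms_and_const {Ω : Type*} [MeasurableSpace Ω] (c : Prop) {q : Ω → Prop}
    (h : MeasurableSet {p | q p}) : MeasurableSet {p | c ∧ q p} := by
  by_cases hc : c
  · simpa [hc] using h
  · simp [hc]

lemma measurable_Gsingle (M : Matroid E) :
    Measurable fun p : SV E => Gsingle M p.1 p.2 := by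
  unfold Gsingle
  have ht : Measurable fun p : SV E => tau M 1 p.1 := (measurable_tau M 1).comp measurable_fst
  have hs : ∀ e : E, MeasurableSet {p : SV E | M.Indep (({e} : Finset E) : Set E) ∧ tau M 1 p.1 < p.2 e} :=
    fun e => ms_and_const _ (measurableSet_lt ht (measurable_V e))
  refine Measurable.ite ?_ ?_ measurable_const
  · have : {p : SV E | ∃ e : E, M.Indep (({e} : Finset E) : Set E) ∧ tau M 1 p.1 < p.2 e}
        = ⋃ e : E, {p : SV E | M.Indep (({e} : Finset E) : Set E) ∧ tau M 1 p.1 < p.2 e} := by
      ext p; simp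
    rw [this]
    exact MeasurableSet.iUnion hs
  · exact Measurable.iInf fun e => Measurable.ite (hs e) (measurable_V e) measurable_const

lemma measurable_card_filter {Ω : Type*} [MeasurableSpace Ω] (p : Ω → E → Prop)
    [∀ ω f, Decidable (p ω f)] (hp : ∀ f, MeasurableSet {ω | p ω f}) :
    Measurable fun ω => (univ.filter (p ω)).card := by
  have : (fun ω => (univ.filter (p ω)).card) = fun ω => ∑ f, if p ω f then 1 else 0 := by
    ext ω
    rw [Finset.card_filter]
  rw [this]
  exact Finset.measurable_sum _ fun f _ => Measurable.ite (hp f) measurable_const measurable_const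

lemma measurableSet_topElig (g : ℕ) (e : E) :
    MeasurableSet {p : SV E | topElig g p.1 p.2 e} := by
  unfold topElig
  have h := measurable_card_filter (Ω := SV E)
    (fun p f => toLex (p.2 e, e) < toLex (p.1 f, f)) (by
      intro f
      simp only [Prod.Lex.toLex_lt_toLex]
      by_cases hef : e < f
      · simp only [hef, and_true]
        exact (measurableSet_lt (measurable_V e) (measurable_S f)).union
          (measurableSet_eq_fun (measurable_V e) (measurable_S f))
      · simp only [hef, and_false, or_false]
        exact measurableSet_lt (measurable_V e) (measurable_S f))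
  exact measurableSet_lt h measurable_const

lemma measurable_Gtop (g : ℕ) :
    Measurable fun p : SV E => Gtop g p.1 p.2 := by
  unfold Gtop
  refine Measurable.ite ?_ ?_ measurable_const
  · exact measurableSet_lt (measurable_card_filter (Ω := SV E) (fun p e => topElig g p.1 p.2 e)
      (measurableSet_topElig g)) measurable_const
  · exact Finset.measurable_sum _ fun e _ =>
      Measurable.ite (measurableSet_topElig g e) (measurable_V e) measurable_const

lemma measurable_Gfun (M : Matroid E) (g j : ℕ) :
    Measurable fun p : SV E => Gfun M g j p.1 p.2 := by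
  match j with
  | 0 => exact measurable_Gsingle M
  | 1 => exact measurable_Gtop g
  | j + 2 => exact measurable_Grank M _

end Vale.Agent.Lib.P331
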