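import Vale.Agent.Lib.P331.Top

set_option linter.unusedSectionVars false

namespace Vale.Agent.Lib.P331

open Finset MeasureTheory
open scoped ENNReal NNReal Classical

variable {E : Type*} [Fintype E] [LinearOrder E]

lemma sum_le_sum_tau (M : Matroid E) (H : E → ℝ≥0∞) (k : ℕ) :
    ∀ I : Finset E, I.card = k → M.Indep (I : Set E) →
      ∑ e ∈ I, H e ≤ ∑ i ∈ Ico 1 (k + 1), tau M i H := by
  induction k with
  | zero =>
    intro I hc _
    rw [Finset.card_eq_zero] at hc
    simp [hc]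
  | succ k ih =>
    intro I hc hI
    have hne : I.Nonempty := Finset.card_pos.mp (by omega)
    obtain ⟨e₀, he₀, hmin⟩ := Finset.exists_min_image I H hne
    rw [Finset.sum_Ico_succ_top (by omega : 1 ≤ k + 1), ← Finset.add_sum_erase I H he₀, add_comm]
    refine add_le_add (ih _ (by rw [Finset.card_erase_of_mem he₀]; omega)
      (indep_sub hI (Finset.erase_subset _ _))) ?_
    refine le_trans ?_ (inf_le_tau hI hc)
    exact le_iInf₂ fun e he => hmin e he

lemma opt_le_sum_tau (M : Matroid E) {r : ℕ}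
    (hr : ∀ I : Finset E, M.Indep (I : Set E) → I.card ≤ r) (H : E → ℝ≥0∞) :
    opt M H ≤ ∑ i ∈ Ico 1 (r + 1), tau M i H := by
  refine iSup₂_le fun I hI => (sum_le_sum_tau M H _ I rfl hI).trans ?_
  exact Finset.sum_le_sum_of_subset
    (Finset.Ico_subset_Ico le_rfl (by have := hr I hI; omega))

lemma opt_mono (M : Matroid E) {v w : E → ℝ≥0∞} (h : ∀ e, v e ≤ w e) : opt M v ≤ opt M w :=
  iSup₂_mono fun _ _ => Finset.sum_le_sum fun e _ => h e

/-- Dyadic summation for an antitone sequence. -/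
lemma dyadic_sum (x : ℕ → ℝ≥0∞) (hx : Antitone x) (a : ℕ) (J : ℕ) (ha : 1 ≤ a) :
    ∑ k ∈ Ico a (a * 2 ^ J), x k ≤ ∑ j ∈ range J, ((a * 2 ^ j : ℕ) : ℝ≥0∞) * x (a * 2 ^ j) := by
  induction J with
  | zero => simp
  | succ J ih =>
    have h1 : a ≤ a * 2 ^ J := Nat.le_mul_of_pos_right a (by positivity)
    have h2 : a * 2 ^ J ≤ a * 2 ^ (J + 1) := Nat.mul_le_mul_left a (Nat.pow_le_pow_right (by omega) (by omega))
    rw [← Finset.sum_Ico_consecutive x h1 h2, Finset.sum_range_succ]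
    refine add_le_add ih ?_
    calc ∑ k ∈ Ico (a * 2 ^ J) (a * 2 ^ (J + 1)), x k
        ≤ ∑ _k ∈ Ico (a * 2 ^ J) (a * 2 ^ (J + 1)), x (a * 2 ^ J) :=
          Finset.sum_le_sum fun k hk => hx (Finset.mem_Ico.mp hk).1
      _ = ((a * 2 ^ J : ℕ) : ℝ≥0∞) * x (a * 2 ^ J) := by
          rw [Finset.sum_const, Nat.card_Ico, nsmul_eq_mul]
          congr 2
          rw [pow_succ]
          have : a * (2 ^ J * 2) = a * 2 ^ J * 2 := by ring
          omega

lemma levels_cover (r g : ℕ) :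
    r + 1 ≤ (3 * baseLevel g) * 2 ^ numLevels r g := by
  have ha : 0 < 3 * baseLevel g := by unfold baseLevel; positivity
  have h1 : (r + 1) / (3 * baseLevel g) + 2 ≤ 2 ^ numLevels r g :=
    Nat.le_pow_clog (by omega) _
  have h2 := Nat.div_add_mod (r + 1) (3 * baseLevel g)
  have h3 := Nat.mod_lt (r + 1) ha
  have h4 : (3 * baseLevel g) * ((r + 1) / (3 * baseLevel g) + 2) ≤
      (3 * baseLevel g) * 2 ^ numLevels r g := Nat.mul_le_mul_left _ h1
  rw [Nat.mul_add] at h4
  omega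

lemma numLevels_pos (r g : ℕ) : 1 ≤ numLevels r g :=
  Nat.clog_pos (by omega) (Nat.le_add_left 2 _)

/-- For `r ≤ g`, in particular for paving matroids (`g = r`), at most five seeds are used. -/
lemma numSeeds_le_five {r g : ℕ} (h : r ≤ g) : numSeeds r g ≤ 5 := by
  unfold numSeeds numLevels
  have hdiv : (r + 1) / (3 * baseLevel g) ≤ 6 := by
    refine Nat.div_le_of_le_mul ?_
    unfold baseLevel
    rcases Nat.lt_or_ge g 6 with h6 | h6
    · have : 1 ≤ max 1 (g / 6) := le_max_left _ _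
      omega
    · have h7 : g / 6 ≤ max 1 (g / 6) := le_max_right _ _
      have := Nat.div_add_mod g 6
      have := Nat.mod_lt g (by norm_num : 6 > 0)
      omega
  have : Nat.clog 2 ((r + 1) / (3 * baseLevel g) + 2) ≤ 3 :=
    Nat.clog_le_of_le_pow (by norm_num; omega)
  omega

/-- The pointwise inequality on one swap orbit. -/
theorem pointwise (M : Matroid E) (r g : ℕ)
    (hr : ∀ I : Finset E, M.Indep (I : Set E) → I.card ≤ r) {H l : E → ℝ≥0∞}
    (hl : ∀ e, l e ≤ H e) :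
    ∑ U, opt M (Vof H l U) ≤
      32 * ∑ j ∈ range (numSeeds r g), ∑ U, Gfun M g j (Sof H l U) (Vof H l U) := by
  set N : ℝ≥0∞ := 2 ^ Fintype.card E with hN
  set x : ℕ → ℝ≥0∞ := fun k => tau M k H with hx
  set A : ℕ → ℝ≥0∞ := fun j => ∑ U, Gfun M g j (Sof H l U) (Vof H l U) with hA
  set m₀ := baseLevel g with hm₀
  set J := numLevels r g with hJ
  have hm₀pos : 1 ≤ m₀ := le_max_left _ _
  have ha1 : 1 ≤ 3 * m₀ := by omega
  have hanti : Antitone x := fun a b hab => tau_anti M H hab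
  -- step 0
  have h0 : ∑ U, opt M (Vof H l U) ≤ N * opt M H := by
    calc ∑ U, opt M (Vof H l U) ≤ ∑ _U : Finset E, opt M H :=
          Finset.sum_le_sum fun U _ => opt_mono M (Vof_le hl U)
      _ = N * opt M H := by
          rw [Finset.sum_const, Finset.card_univ, Fintype.card_finset, nsmul_eq_mul]
          simp [hN]
  -- step 1, 2
  have h1 : opt M H ≤ ∑ k ∈ Ico 1 (3 * m₀), x k + ∑ k ∈ Ico (3 * m₀) (3 * m₀ * 2 ^ J), x k := by
    rw [Finset.sum_Ico_consecutive x ha1 (Nat.le_mul_of_pos_right _ (by positivity))]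
    refine (opt_le_sum_tau M hr H).trans (Finset.sum_le_sum_of_subset ?_)
    exact Finset.Ico_subset_Ico le_rfl (levels_cover r g)
  -- step 3, 4
  have h3 : N * ∑ k ∈ Ico (3 * m₀) (3 * m₀ * 2 ^ J), x k ≤
      24 * ∑ j ∈ range J, A (j + 2) := by
    calc N * ∑ k ∈ Ico (3 * m₀) (3 * m₀ * 2 ^ J), x k
        ≤ N * ∑ j ∈ range J, ((3 * m₀ * 2 ^ j : ℕ) : ℝ≥0∞) * x (3 * m₀ * 2 ^ j) := by
          gcongr
          exact dyadic_sum x hanti _ _ ha1
      _ = ∑ j ∈ range J, 3 * (N * (((m₀ * 2 ^ j : ℕ) : ℝ≥0∞) * x (3 * (m₀ * 2 ^ j)))) := by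
          rw [Finset.mul_sum]
          refine Finset.sum_congr rfl fun j _ => ?_
          have e1 : 3 * m₀ * 2 ^ j = 3 * (m₀ * 2 ^ j) := by ring
          rw [e1]
          push_cast
          ring
      _ ≤ ∑ j ∈ range J, 3 * (8 * A (j + 2)) := by
          refine Finset.sum_le_sum fun j _ => ?_
          exact mul_le_mul' le_rfl (level_rank M hl (m₀ * 2 ^ j))
      _ = 24 * ∑ j ∈ range J, A (j + 2) := by
          rw [Finset.mul_sum]
          refine Finset.sum_congr rfl fun j _ => ?_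
          ring
  have hsum : ∑ j ∈ range (numSeeds r g), A j = A 0 + A 1 + ∑ j ∈ range J, A (j + 2) := by
    unfold numSeeds
    rw [Finset.sum_range_succ', Finset.sum_range_succ']
    ring
  -- step 5, the low part
  have h5 : N * ∑ k ∈ Ico 1 (3 * m₀), x k ≤ 8 * A 0 + 4 * A 1 + 8 * ∑ j ∈ range J, A (j + 2) := by
    rcases Nat.lt_or_ge g 12 with h12 | h12
    · -- small `g`: `m₀ = 1`
      have hm1 : m₀ = 1 := by
        rw [hm₀]; unfold baseLevel
        exact max_eq_left (by omega)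
      rw [hm1]
      have hJpos : 1 ≤ J := numLevels_pos r g
      have hlow : ∑ k ∈ Ico 1 (3 * 1), x k ≤ 2 * x 1 := by
        have : Ico 1 (3 * 1) = {1, 2} := by decide
        rw [this, Finset.sum_pair (by norm_num), two_mul]
        exact add_le_add le_rfl (hanti (by norm_num))
      have hs := level_single M hl
      have hA2 : A 2 ≤ ∑ j ∈ range J, A (j + 2) :=
        Finset.single_le_sum (f := fun j => A (j + 2)) (fun _ _ => zero_le)
          (Finset.mem_range.mpr (by omega : 0 < J))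
      have hA2' : ∑ U, Grank M 1 (Sof H l U) (Vof H l U) = A 2 := by
        have h21 : baseLevel g * 2 ^ 0 = 1 := by rw [← hm₀, hm1]; norm_num
        show _ = ∑ U, Grank M (baseLevel g * 2 ^ 0) (Sof H l U) (Vof H l U)
        rw [h21]
      calc N * ∑ k ∈ Ico 1 (3 * 1), x k ≤ N * (2 * x 1) := by gcongr
        _ = 2 * (N * x 1) := by ring
        _ ≤ 2 * (4 * (A 0 + A 2)) := by
            refine mul_le_mul' le_rfl ?_
            rw [← hA2']
            exact hs
        _ = 8 * A 0 + 8 * A 2 := by ring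
        _ ≤ 8 * A 0 + 4 * A 1 + 8 * ∑ j ∈ range J, A (j + 2) := by
            gcongr
            exact le_self_add
    · -- large `g`
      have hm : m₀ = g / 6 := by
        rw [hm₀]; unfold baseLevel
        exact max_eq_right (by omega)
      have hsub : Ico 1 (3 * m₀) ⊆ Ico 1 (g / 2) :=
        Finset.Ico_subset_Ico le_rfl (by rw [hm]; omega)
      have ht := level_top M (g := g) (by omega) hl
      calc N * ∑ k ∈ Ico 1 (3 * m₀), x k ≤ N * ∑ k ∈ Ico 1 (g / 2), x k := by
            exact mul_le_mul' le_rfl (Finset.sum_le_sum_of_subset hsub)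
        _ ≤ 4 * A 1 := ht
        _ ≤ 8 * A 0 + 4 * A 1 + 8 * ∑ j ∈ range J, A (j + 2) := by
            refine le_trans ?_ le_self_add
            exact le_add_self
  -- assembling
  have htot : N * opt M H ≤ 8 * A 0 + 4 * A 1 + 32 * ∑ j ∈ range J, A (j + 2) := by
    calc N * opt M H ≤ N * (∑ k ∈ Ico 1 (3 * m₀), x k + ∑ k ∈ Ico (3 * m₀) (3 * m₀ * 2 ^ J), x k) := by
          gcongr
      _ = N * ∑ k ∈ Ico 1 (3 * m₀), x k + N * ∑ k ∈ Ico (3 * m₀) (3 * m₀ * 2 ^ J), x k := mul_add _ _ _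
      _ ≤ (8 * A 0 + 4 * A 1 + 8 * ∑ j ∈ range J, A (j + 2)) + 24 * ∑ j ∈ range J, A (j + 2) :=
          add_le_add h5 h3
      _ = _ := by ring
  calc ∑ U, opt M (Vof H l U) ≤ N * opt M H := h0
    _ ≤ 8 * A 0 + 4 * A 1 + 32 * ∑ j ∈ range J, A (j + 2) := htot
    _ ≤ 32 * A 0 + 32 * A 1 + 32 * ∑ j ∈ range J, A (j + 2) := by
        gcongr <;> norm_num
    _ = 32 * ∑ j ∈ range (numSeeds r g), A j := by
        rw [hsum]; ring

end Vale.Agent.Lib.P331
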