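import Vale.Agent.Lib.P331.Count

/-!
# Online rules, the play of a rule against an order, and the explicit rule
-/

namespace Vale.Agent.Lib.P331

open Finset
open scoped NNReal ENNReal

variable {E Ω L : Type*}

/-- An online rule with seeds in `Ω`: from the sample vector `S`, the seed `ω`, the list of
earlier arrivals with their values, the arriving element and its value, it decides whether to
accept.  It sees neither the future order nor the values of future arrivals. -/
def OnlineRule (E Ω : Type*) : Type _ := (E → ℝ≥0) → Ω → List (E × ℝ≥0) → E → ℝ≥0 → Prop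

open Classical in
/-- The set accepted by the rule `r` when the elements of the list arrive one at a time, with
values `V`, after the history `h`. -/
noncomputable def play [DecidableEq E] (r : OnlineRule E Ω) (S : E → ℝ≥0) (ω : Ω) (V : E → ℝ≥0) :
    List (E × ℝ≥0) → List E → Finset E
  | _, [] => ∅
  | h, e :: l =>
      (if r S ω h e (V e) then {e} else ∅) ∪ play r S ω V (h ++ [(e, V e)]) l

/-- The set accepted by `r` on the arrival order `order`, from an empty history. -/
noncomputable def accepted [DecidableEq E] (r : OnlineRule E Ω) (S : E → ℝ≥0) (ω : Ω)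
    (V : E → ℝ≥0) (order : List E) : Finset E :=
  play r S ω V [] order

variable [LinearOrder E] [DecidableEq L]

/-- Values of label `ρ` from `w`, all other values from `S`. -/
def merged (σ : E → L) (ρ : L) (S w : E → ℝ≥0) (z : E) : ℝ≥0 := if σ z = ρ then w z else S z

/-- The acceptance test of the rule, from the internal state (accepted set and seen values). -/
def acceptAt (M : Matroid E) (S : E → ℝ≥0) (ω : (E → L) × L) (st : Finset E × (E → ℝ≥0))
    (y : E) (v : ℝ≥0) : Prop :=
  ω.1 y = ω.2 ∧
    Free M (pat (merged ω.1 ω.2 S (Function.update st.2 y v))) ω.1 ω.2 (insert y (st.1 : Set E))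

open Classical in
/-- One step of the internal state. -/
noncomputable def stepSt (M : Matroid E) (S : E → ℝ≥0) (ω : (E → L) × L)
    (st : Finset E × (E → ℝ≥0)) (p : E × ℝ≥0) : Finset E × (E → ℝ≥0) :=
  (if acceptAt M S ω st p.1 p.2 then insert p.1 st.1 else st.1, Function.update st.2 p.1 p.2)

/-- The internal state after a history. -/
noncomputable def stOf (M : Matroid E) (S : E → ℝ≥0) (ω : (E → L) × L) (h : List (E × ℝ≥0)) :
    Finset E × (E → ℝ≥0) :=
  h.foldl (stepSt M S ω) (∅, 0)

/-- The explicit rule. -/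
def ruleOf (M : Matroid E) : OnlineRule E ((E → L) × L) :=
  fun S ω h y v => acceptAt M S ω (stOf M S ω h) y v

omit [DecidableEq L] in
theorem free_congr {M : Matroid E} {a b : E → ℝ≥0} {σ : E → L} {ρ : L} {X : Set E}
    (hX : ∀ x ∈ X, a x = b x) (hS : ∀ z, σ z ≠ ρ → a z = b z) :
    Free M (pat a) σ ρ X ↔ Free M (pat b) σ ρ X := by
  have hp : ∀ x ∈ X, topSet (pat a) σ ρ X x = topSet (pat b) σ ρ X x := by
    intro x hx
    ext z
    have h1 : σ z ≠ ρ → (pat a x z ↔ pat b x z) := by
      intro h
      rw [pat_iff, pat_iff, hX x hx, hS z h]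
    have h2 : z ∈ X → (pat a x z ↔ pat b x z) := by
      intro h
      rw [pat_iff, pat_iff, hX x hx, hX z h]
    simp only [topSet, Set.mem_union, Set.mem_ofPred_eq]
    constructor
    · rintro (⟨h3, h4⟩ | ⟨h3, h4⟩)
      · exact Or.inl ⟨(h1 h4).1 h3, h4⟩
      · exact Or.inr ⟨h3, (h2 h3).1 h4⟩
    · rintro (⟨h3, h4⟩ | ⟨h3, h4⟩)
      · exact Or.inl ⟨(h1 h4).2 h3, h4⟩
      · exact Or.inr ⟨h3, (h2 h3).2 h4⟩
  constructor
  · intro h x hx
    rw [← hp x hx]
    exact h x hx
  · intro h x hx
    rw [hp x hx]
    exact h x hx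

/-- The invariant of the internal state. -/
def Inv (M : Matroid E) (S : E → ℝ≥0) (σ : E → L) (ρ : L) (V : E → ℝ≥0)
    (st : Finset E × (E → ℝ≥0)) : Prop :=
  (∀ z ∈ st.1, st.2 z = V z ∧ σ z = ρ) ∧ Free M (pat (merged σ ρ S V)) σ ρ (st.1 : Set E)

theorem accept_iff {M : Matroid E} {S : E → ℝ≥0} {σ : E → L} {ρ : L} {V : E → ℝ≥0}
    {st : Finset E × (E → ℝ≥0)} (hst : ∀ z ∈ st.1, st.2 z = V z ∧ σ z = ρ) (y : E) :
    acceptAt M S (σ, ρ) st y (V y) ↔
      σ y = ρ ∧ Free M (pat (merged σ ρ S V)) σ ρ (insert y (st.1 : Set E)) := by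
  unfold acceptAt
  refine and_congr_right fun hy => ?_
  simp only
  refine free_congr ?_ ?_
  · intro x hx
    rcases hx with rfl | hx
    · simp [merged]
    · have hx' := hst x (by simpa using hx)
      by_cases hxy : x = y
      · subst hxy
        simp [merged, hy]
      · simp [merged, hx'.2, Function.update_of_ne hxy, hx'.1]
  · intro z hz
    simp [merged, hz]

theorem stOf_append (M : Matroid E) (S : E → ℝ≥0) (ω : (E → L) × L) (h : List (E × ℝ≥0))
    (p : E × ℝ≥0) : stOf M S ω (h ++ [p]) = stepSt M S ω (stOf M S ω h) p := by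
  simp [stOf, List.foldl_append]

theorem inv_step {M : Matroid E} {S : E → ℝ≥0} {σ : E → L} {ρ : L} {V : E → ℝ≥0}
    {st : Finset E × (E → ℝ≥0)} (hinv : Inv M S σ ρ V st) (y : E) :
    Inv M S σ ρ V (stepSt M S (σ, ρ) st (y, V y)) := by
  classical
  have hval : ∀ z ∈ st.1, Function.update st.2 y (V y) z = V z := by
    intro z hz
    by_cases hzy : z = y
    · subst hzy
      simp
    · rw [Function.update_of_ne hzy]
      exact (hinv.1 z hz).1
  by_cases hacc : acceptAt M S (σ, ρ) st y (V y)
  · have hacc' := (accept_iff hinv.1 y).1 hacc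
    refine ⟨?_, ?_⟩
    · intro z hz
      simp only [stepSt, if_pos hacc, mem_insert] at hz
      rcases hz with rfl | hz
      · simp [stepSt, hacc'.1]
      · exact ⟨hval z hz, (hinv.1 z hz).2⟩
    · simp only [stepSt, if_pos hacc, coe_insert]
      exact hacc'.2
  · refine ⟨?_, ?_⟩
    · intro z hz
      simp only [stepSt, if_neg hacc] at hz
      exact ⟨hval z hz, (hinv.1 z hz).2⟩
    · simp only [stepSt, if_neg hacc]
      exact hinv.2

open Classical in
/-- The run of the test as a function of the comparison pattern only. -/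
noncomputable def pureRun (M : Matroid E) (σ : E → L) (ρ : L) (R : E → E → Prop) :
    Finset E → List E → Finset E
  | _, [] => ∅
  | A, e :: l =>
      (if σ e = ρ ∧ Free M R σ ρ (insert e (A : Set E)) then {e} else ∅) ∪
        pureRun M σ ρ R (if σ e = ρ ∧ Free M R σ ρ (insert e (A : Set E)) then insert e A else A) l

theorem run_main {M : Matroid E} (S : E → ℝ≥0) (σ : E → L) (ρ : L) (V : E → ℝ≥0) :
    ∀ (l : List E) (h : List (E × ℝ≥0)), Inv M S σ ρ V (stOf M S (σ, ρ) h) →
      Free M (pat (merged σ ρ S V)) σ ρ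
        (((stOf M S (σ, ρ) h).1 ∪ play (ruleOf M) S (σ, ρ) V h l : Finset E) : Set E) ∧
      (∀ e ∈ l, e ∈ greedySet M (pat (merged σ ρ S V)) → σ e = ρ →
        ¬ Bad M (pat (merged σ ρ S V)) σ ρ e →
        e ∈ (stOf M S (σ, ρ) h).1 ∪ play (ruleOf M) S (σ, ρ) V h l) ∧
      play (ruleOf M) S (σ, ρ) V h l =
        pureRun M σ ρ (pat (merged σ ρ S V)) (stOf M S (σ, ρ) h).1 l := by
  classical
  intro l
  induction l with
  | nil =>
    intro h hinv
    simp only [play, pureRun, union_empty, List.not_mem_nil, false_imp_iff, implies_true,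
      and_true]
    exact hinv.2
  | cons e l ih =>
    intro h hinv
    have hstep := inv_step hinv e
    rw [← stOf_append] at hstep
    obtain ⟨h1, h2, h3⟩ := ih _ hstep
    have hA : (stOf M S (σ, ρ) (h ++ [(e, V e)])).1 =
        if acceptAt M S (σ, ρ) (stOf M S (σ, ρ) h) e (V e)
          then insert e (stOf M S (σ, ρ) h).1 else (stOf M S (σ, ρ) h).1 := by
      rw [stOf_append]
      rfl
    have hdec : (ruleOf M S (σ, ρ) h e (V e)) =
        acceptAt M S (σ, ρ) (stOf M S (σ, ρ) h) e (V e) := rfl
    have hU : (stOf M S (σ, ρ) h).1 ∪ play (ruleOf M) S (σ, ρ) V h (e :: l) =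
        (stOf M S (σ, ρ) (h ++ [(e, V e)])).1 ∪
          play (ruleOf M) S (σ, ρ) V (h ++ [(e, V e)]) l := by
      rw [play, hA, hdec]
      by_cases hacc : acceptAt M S (σ, ρ) (stOf M S (σ, ρ) h) e (V e)
      · simp only [if_pos hacc]
        ext z
        simp only [mem_union, mem_singleton, mem_insert]
        tauto
      · simp only [if_neg hacc]
        simp
    rw [hU]
    refine ⟨h1, ?_, ?_⟩
    · intro e' he'
      rcases List.mem_cons.1 he' with rfl | he'
      · intro hg hσ hb
        by_cases hin : e' ∈ (stOf M S (σ, ρ) h).1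
        · refine mem_union_left _ ?_
          rw [hA]
          split_ifs
          · exact mem_insert_of_mem hin
          · exact hin
        · have hfree : Free M (pat (merged σ ρ S V)) σ ρ
              (insert e' ((stOf M S (σ, ρ) h).1 : Set E)) :=
            Free.insert_of_good (keyOf_injective _) hinv.2
              (fun z hz => (hinv.1 z (by simpa using hz)).2) (by simpa using hin) hσ hg hb
          have hacc : acceptAt M S (σ, ρ) (stOf M S (σ, ρ) h) e' (V e') :=
            (accept_iff hinv.1 e').2 ⟨hσ, hfree⟩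
          refine mem_union_left _ ?_
          rw [hA, if_pos hacc]
          exact mem_insert_self _ _
      · exact h2 e' he'
    · have hiff := accept_iff (M := M) (S := S) hinv.1 e
      rw [play, pureRun, hdec, h3, hA]
      simp only [hiff]

end Vale.Agent.Lib.P331
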