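import Vale.Agent.Lib.P331.Flip

set_option linter.unusedSectionVars false

namespace Vale.Agent.Lib.P331

open Finset MeasureTheory
open scoped ENNReal NNReal Classical

variable {E : Type*} [Fintype E] [LinearOrder E]

lemma le_tau_one {M : Matroid E} {v : E → ℝ≥0∞} {e : E}
    (he : M.Indep (({e} : Finset E) : Set E)) : v e ≤ tau M 1 v := by
  have := inf_le_tau (M := M) (m := 1) (v := v) he (Finset.card_singleton e)
  simpa using this

lemma tau_one_le {M : Matroid E} {v : E → ℝ≥0∞} {c : ℝ≥0∞}
    (h : ∀ e, M.Indep (({e} : Finset E) : Set E) → v e ≤ c) : tau M 1 v ≤ c := by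
  refine tau_le fun I hI hc => ?_
  obtain ⟨a, rfl⟩ := Finset.card_eq_one.mp hc
  simpa using h a hI

/-- The second value against the top element `e₀`. -/
lemma second_value (M : Matroid E) {H l : E → ℝ≥0∞} (hl : ∀ e, l e ≤ H e) {e₀ : E}
    (he₀ : M.Indep (({e₀} : Finset E) : Set E))
    (hmax : ∀ e, M.Indep (({e} : Finset E) : Set E) → H e ≤ H e₀) :
    ∃ (Q : Finset E) (z : ℝ≥0∞), Disjoint ({e₀} : Finset E) Q ∧ l e₀ ≤ z ∧
      (∀ e, e ≠ e₀ → M.Indep (({e} : Finset E) : Set E) → H e ≤ z) ∧
      ∀ U, Good {e₀} Q U → z ≤ tau M 1 (Sof H l U) := by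
  set R : Finset E := univ.filter fun f =>
    f ≠ e₀ ∧ M.Indep (({f} : Finset E) : Set E) ∧ l e₀ < H f with hR
  by_cases hne : R.Nonempty
  · obtain ⟨f, hf, hfmax⟩ := Finset.exists_max_image R H hne
    have hf' : f ≠ e₀ ∧ M.Indep (({f} : Finset E) : Set E) ∧ l e₀ < H f := by
      simpa [hR] using hf
    refine ⟨{f}, H f, ?_, hf'.2.2.le, ?_, ?_⟩
    · simpa [Finset.disjoint_singleton] using hf'.1.symm
    · intro e hee he
      by_cases hle : l e₀ < H e
      · exact hfmax e (by
          have : e ≠ e₀ ∧ M.Indep (({e} : Finset E) : Set E) ∧ l e₀ < H e := ⟨hee, he, hle⟩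
          simpa [hR] using this)
      · exact (not_lt.mp hle).trans hf'.2.2.le
    · intro U hU
      have hfU : f ∉ U := by
        have h2 := hU.2
        intro hin
        have : ({f} : Finset E) \ U = ∅ := by
          ext x; simp only [mem_sdiff, mem_singleton, notMem_empty, iff_false]
          rintro ⟨rfl, hx⟩; exact hx hin
        rw [this] at h2
        simp at h2
      have := le_tau_one (v := Sof H l U) hf'.2.1
      rwa [Sof_of_notMem hfU] at this
  · refine ⟨∅, l e₀, by simp, le_rfl, ?_, ?_⟩
    · intro e hee he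
      by_contra hlt
      exact hne ⟨e, by
        have : e ≠ e₀ ∧ M.Indep (({e} : Finset E) : Set E) ∧ l e₀ < H e :=
          ⟨hee, he, not_le.mp hlt⟩
        simpa [hR] using this⟩
    · intro U hU
      have he : e₀ ∈ U := good_mem rfl hU
      have := le_tau_one (v := Sof H l U) he₀
      rwa [Sof_of_mem he] at this

lemma level_single (M : Matroid E) {H l : E → ℝ≥0∞} (hl : ∀ e, l e ≤ H e) :
    (2 ^ Fintype.card E : ℝ≥0∞) * tau M 1 H ≤
      4 * (∑ U, Gsingle M (Sof H l U) (Vof H l U) + ∑ U, Grank M 1 (Sof H l U) (Vof H l U)) := by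
  by_cases hex : ∃ I : Finset E, M.Indep (I : Set E) ∧ I.card = 1
  · obtain ⟨P, hP, hPc, hτ⟩ := tau_attained H hex
    obtain ⟨e₀, rfl⟩ := Finset.card_eq_one.mp hPc
    have hτ' : tau M 1 H = H e₀ := by simpa using hτ
    have hmax : ∀ e, M.Indep (({e} : Finset E) : Set E) → H e ≤ H e₀ := fun e he =>
      hτ' ▸ le_tau_one he
    obtain ⟨Q, z, hd, hlz, hHz, hzS⟩ := second_value M hl hP hmax
    rw [hτ']
    by_cases hlt : z < H e₀
    · have key := avg_good hd (fun U => Gsingle M (Sof H l U) (Vof H l U)) (H e₀) (by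
        intro U hU
        have he : e₀ ∈ U := good_mem rfl hU
        have hS : tau M 1 (Sof H l U) ≤ z := by
          refine tau_one_le fun e hei => ?_
          by_cases hee : e = e₀
          · subst hee; rw [Sof_of_mem he]; exact hlz
          · exact (Sof_le hl U e).trans (hHz e hee hei)
        have hV : Vof H l U e₀ = H e₀ := Vof_of_mem he
        show _ ≤ Gsingle M (Sof H l U) (Vof H l U)
        unfold Gsingle
        rw [if_pos ⟨e₀, hP, by rw [hV]; exact hS.trans_lt hlt⟩]
        refine le_iInf fun e => ?_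
        split_ifs with hc
        · by_cases hee : e = e₀
          · subst hee; rw [hV]
          · exfalso
            have h1 := (Vof_le hl U e).trans (hHz e hee hc.1)
            have h2 := hzS U hU
            exact absurd hc.2 (not_lt.mpr (h1.trans h2))
        · exact le_top)
      refine key.trans ?_
      gcongr
      exact le_self_add
    · have key := avg_good hd (fun U => Grank M 1 (Sof H l U) (Vof H l U)) (H e₀) (by
        intro U hU
        have he : e₀ ∈ U := good_mem rfl hU
        have hV : Vof H l U e₀ = H e₀ := Vof_of_mem he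
        have hS : H e₀ ≤ tau M 1 (Sof H l U) := (not_lt.mp hlt).trans (hzS U hU)
        have hS' : tau M 1 (Sof H l U) ≤ H e₀ :=
          (tau_mono M 1 (Sof_le hl U)).trans hτ'.le
        show _ ≤ Grank M 1 (Sof H l U) (Vof H l U)
        unfold Grank
        rw [if_pos ⟨{e₀}, hP, by simp, by
          intro e hxe
          rw [Finset.mem_singleton] at hxe
          subst hxe
          rw [hV]; exact hS'⟩]
        simpa using hS)
      refine key.trans ?_
      gcongr
      exact le_add_self
  · have : tau M 1 H = 0 := by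
      refine le_antisymm (tau_le fun I hI hc => absurd ⟨I, hI, hc⟩ hex) zero_le
    simp [this]

end Vale.Agent.Lib.P331
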