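import Vale.Agent.Lib.P331.Pointwise

set_option linter.unusedSectionVars false

namespace Vale.Agent.Lib.P331

open Finset MeasureTheory
open scoped ENNReal NNReal Classical

variable {E : Type*} [Fintype E] [LinearOrder E]

/-- Swap sample and value on the elements of `T`. -/
def swapOn (T : Finset E) (ω : E → ℝ≥0 × ℝ≥0) (e : E) : ℝ≥0 × ℝ≥0 :=
  if e ∈ T then (ω e).swap else ω e

lemma swapOn_mp (D : E → Measure ℝ≥0) [∀ e, IsProbabilityMeasure (D e)] (T : Finset E) :
    MeasurePreserving (swapOn T) (Measure.pi fun e => (D e).prod (D e))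
      (Measure.pi fun e => (D e).prod (D e)) := by
  have h : ∀ e, MeasurePreserving (fun p : ℝ≥0 × ℝ≥0 => if e ∈ T then p.swap else p)
      ((D e).prod (D e)) ((D e).prod (D e)) := by
    intro e
    by_cases he : e ∈ T
    · simp only [he, if_true]
      exact Measure.measurePreserving_swap
    · simp only [he, if_false]
      exact MeasurePreserving.id _
  exact measurePreserving_pi _ _ h

lemma measurable_pair : Measurable fun ω : E → ℝ≥0 × ℝ≥0 => (sampleOf ω, valueOf ω) := by
  refine Measurable.prodMk ?_ ?_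
  · exact measurable_pi_lambda _ fun e =>
      measurable_coe_nnreal_ennreal.comp (measurable_fst.comp (measurable_pi_apply e))
  · exact measurable_pi_lambda _ fun e =>
      measurable_coe_nnreal_ennreal.comp (measurable_snd.comp (measurable_pi_apply e))

lemma pair_swapOn (ω : E → ℝ≥0 × ℝ≥0) (T : Finset E) :
    (sampleOf (swapOn T ω), valueOf (swapOn T ω)) =
      (Sof (fun e => max (sampleOf ω e) (valueOf ω e)) (fun e => min (sampleOf ω e) (valueOf ω e))
          (symmDiff T (univ.filter fun e => sampleOf ω e ≤ valueOf ω e)),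
        Vof (fun e => max (sampleOf ω e) (valueOf ω e)) (fun e => min (sampleOf ω e) (valueOf ω e))
          (symmDiff T (univ.filter fun e => sampleOf ω e ≤ valueOf ω e))) := by
  have hS : ∀ e, sampleOf (swapOn T ω) e = if e ∈ T then valueOf ω e else sampleOf ω e := by
    intro e
    unfold sampleOf valueOf swapOn
    split_ifs <;> rfl
  have hV : ∀ e, valueOf (swapOn T ω) e = if e ∈ T then sampleOf ω e else valueOf ω e := by
    intro e
    unfold sampleOf valueOf swapOn
    split_ifs <;> rfl
  rw [Prod.mk.injEq]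
  refine ⟨funext fun e => ?_, funext fun e => ?_⟩
  · rw [hS]
    unfold Sof
    by_cases hle : sampleOf ω e ≤ valueOf ω e
    · by_cases he : e ∈ T <;> simp [Finset.mem_symmDiff, he, hle]
    · have hle' : valueOf ω e ≤ sampleOf ω e := (not_le.mp hle).le
      by_cases he : e ∈ T <;> simp [Finset.mem_symmDiff, he, hle, hle']
  · rw [hV]
    unfold Vof
    by_cases hle : sampleOf ω e ≤ valueOf ω e
    · by_cases he : e ∈ T <;> simp [Finset.mem_symmDiff, he, hle]
    · have hle' : valueOf ω e ≤ sampleOf ω e := (not_le.mp hle).le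
      by_cases he : e ∈ T <;> simp [Finset.mem_symmDiff, he, hle, hle']

/-- The symmetrization principle. -/
theorem sym_le (D : E → Measure ℝ≥0) [∀ e, IsProbabilityMeasure (D e)]
    (F G : SV E → ℝ≥0∞) (hF : Measurable F) (hG : Measurable G)
    (h : ∀ H l : E → ℝ≥0∞, (∀ e, l e ≤ H e) →
      ∑ U, F (Sof H l U, Vof H l U) ≤ ∑ U, G (Sof H l U, Vof H l U)) :
    ∫⁻ ω, F (sampleOf ω, valueOf ω) ∂(Measure.pi fun e => (D e).prod (D e)) ≤
      ∫⁻ ω, G (sampleOf ω, valueOf ω) ∂(Measure.pi fun e => (D e).prod (D e)) := by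
  set P := Measure.pi fun e => (D e).prod (D e) with hP
  have hΦ := measurable_pair (E := E)
  have hcomp : ∀ K : SV E → ℝ≥0∞, Measurable K → ∀ T : Finset E,
      ∫⁻ ω, K (sampleOf (swapOn T ω), valueOf (swapOn T ω)) ∂P =
        ∫⁻ ω, K (sampleOf ω, valueOf ω) ∂P := by
    intro K hK T
    exact (swapOn_mp D T).lintegral_comp (f := fun ω => K (sampleOf ω, valueOf ω)) (hK.comp hΦ)
  have hsw : ∀ T : Finset E, Measurable (swapOn (E := E) T) :=
    fun T => (swapOn_mp D T).measurable
  have hsum : ∀ K : SV E → ℝ≥0∞, Measurable K →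
      ∫⁻ ω, ∑ T : Finset E, K (sampleOf (swapOn T ω), valueOf (swapOn T ω)) ∂P =
        (2 ^ Fintype.card E : ℝ≥0∞) * ∫⁻ ω, K (sampleOf ω, valueOf ω) ∂P := by
    intro K hK
    have hs := lintegral_finsetSum (μ := P) (s := (univ : Finset (Finset E)))
      (f := fun (T : Finset E) ω => K (sampleOf (swapOn T ω), valueOf (swapOn T ω)))
      (fun T _ => (hK.comp hΦ).comp (hsw T))
    rw [hs]
    simp only [hcomp K hK, Finset.sum_const, Finset.card_univ, Fintype.card_finset, nsmul_eq_mul]
    simp
  have hpt : ∀ ω, ∑ T : Finset E, F (sampleOf (swapOn T ω), valueOf (swapOn T ω)) ≤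
      ∑ T : Finset E, G (sampleOf (swapOn T ω), valueOf (swapOn T ω)) := by
    intro ω
    set H : E → ℝ≥0∞ := fun e => max (sampleOf ω e) (valueOf ω e) with hH
    set l : E → ℝ≥0∞ := fun e => min (sampleOf ω e) (valueOf ω e) with hl
    set N : Finset E := univ.filter fun e => sampleOf ω e ≤ valueOf ω e with hN
    have hre : ∀ K : SV E → ℝ≥0∞,
        ∑ T : Finset E, K (sampleOf (swapOn T ω), valueOf (swapOn T ω)) =
          ∑ U : Finset E, K (Sof H l U, Vof H l U) := by
      intro K
      rw [← sum_flip (fun U => K (Sof H l U, Vof H l U)) N]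
      refine Finset.sum_congr rfl fun T _ => ?_
      rw [pair_swapOn ω T]
    rw [hre F, hre G]
    exact h H l fun e => (min_le_left _ _).trans (le_max_left _ _)
  have hfin := lintegral_mono (μ := P) hpt
  rw [hsum F hF, hsum G hG] at hfin
  have hN0 : (2 ^ Fintype.card E : ℝ≥0∞) ≠ 0 := by positivity
  have hNt : (2 ^ Fintype.card E : ℝ≥0∞) ≠ ⊤ := ENNReal.pow_ne_top (by norm_num)
  exact (ENNReal.mul_le_mul_iff_right hN0 hNt).mp hfin

/-- The main inequality. -/
theorem main_inequality (M : Matroid E) (r g : ℕ)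
    (hr : ∀ I : Finset E, M.Indep (I : Set E) → I.card ≤ r)
    (hg : ∀ I : Finset E, I.card < g → M.Indep (I : Set E))
    (D : E → Measure ℝ≥0) [∀ e, IsProbabilityMeasure (D e)]
    (π : (E → ℝ≥0 × ℝ≥0) → ℕ → List E) (hπ : ∀ ω j, ∀ e, e ∈ π ω j) :
    ∫⁻ ω, opt M (valueOf ω) ∂(Measure.pi fun e => (D e).prod (D e)) ≤
      32 * ∑ j ∈ range (numSeeds r g), ∫⁻ ω, ∑ e ∈ run M
        (fun e => eligible M g j (sampleOf ω) e (valueOf ω e)) (π ω j), valueOf ω e
          ∂(Measure.pi fun e => (D e).prod (D e)) := by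
  set P := Measure.pi fun e => (D e).prod (D e) with hP
  have hΦ := measurable_pair (E := E)
  have hG : ∀ j, Measurable fun p : SV E => Gfun M g j p.1 p.2 := measurable_Gfun M g
  have hGsum : Measurable fun p : SV E => 32 * ∑ j ∈ range (numSeeds r g), Gfun M g j p.1 p.2 :=
    (Finset.measurable_sum _ fun j _ => hG j).const_mul _
  have h1 := sym_le D (fun p : SV E => opt M p.2)
    (fun p : SV E => 32 * ∑ j ∈ range (numSeeds r g), Gfun M g j p.1 p.2)
    ((measurable_opt M).comp measurable_snd) hGsum (by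
      intro H l hl
      have := pointwise M r g hr hl
      simp only
      rw [← Finset.mul_sum]
      rw [Finset.sum_comm]
      exact this)
  simp only at h1
  refine h1.trans ?_
  have hm : ∀ j, Measurable fun ω : E → ℝ≥0 × ℝ≥0 => Gfun M g j (sampleOf ω) (valueOf ω) :=
    fun j => (hG j).comp hΦ
  have hs := lintegral_finsetSum (μ := P) (s := range (numSeeds r g))
    (f := fun (j : ℕ) ω => Gfun M g j (sampleOf ω) (valueOf ω)) (fun j _ => hm j)
  have hc := lintegral_const_mul (μ := P) (32 : ℝ≥0∞)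
    (f := fun ω => ∑ j ∈ range (numSeeds r g), Gfun M g j (sampleOf ω) (valueOf ω))
    (Finset.measurable_sum _ fun j _ => hm j)
  rw [hc, hs]
  refine mul_le_mul' le_rfl (Finset.sum_le_sum fun j _ => ?_)
  exact lintegral_mono fun ω => Gfun_le_value M g hg j _ _ (hπ ω j)

end Vale.Agent.Lib.P331
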