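import Vale.Agent.Lib.P331.Single

set_option linter.unusedSectionVars false

namespace Vale.Agent.Lib.P331

open Finset MeasureTheory
open scoped ENNReal NNReal Classical

variable {E : Type*} [Fintype E] [LinearOrder E]

/-- `T` is an initial segment of `E` in the lexicographic order of `(H e, e)`, largest first. -/
def IsUp (H : E → ℝ≥0∞) (T : Finset E) : Prop :=
  ∀ e ∈ T, ∀ f, f ∉ T → toLex (H f, f) < toLex (H e, e)

lemma key_mono {a b : ℝ≥0∞} (h : a ≤ b) (e : E) : toLex (a, e) ≤ toLex (b, e) := by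
  rw [Prod.Lex.toLex_le_toLex']
  exact ⟨h, fun _ => le_rfl⟩

lemma val_le_of_key_le {a b : ℝ≥0∞} {d e : E} (h : toLex (a, d) ≤ toLex (b, e)) : a ≤ b :=
  (Prod.Lex.toLex_le_toLex'.mp h).1

lemma key_ne {a b : ℝ≥0∞} {d e : E} (hde : d ≠ e) : toLex (a, d) ≠ toLex (b, e) := by
  intro h
  have := congrArg (fun x => (ofLex x).2) h
  exact hde (by simpa using this)

lemma up_step {H : E → ℝ≥0∞} {T : Finset E} (hT : IsUp H T) (hne : T ≠ univ) :
    ∃ e, e ∉ T ∧ IsUp H (insert e T) ∧ ∀ d, d ∉ T → H d ≤ H e := by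
  have hc : (univ \ T).Nonempty := by
    by_contra h
    rw [Finset.not_nonempty_iff_eq_empty, Finset.sdiff_eq_empty_iff_subset] at h
    exact hne (Finset.eq_univ_iff_forall.mpr fun x => h (Finset.mem_univ x))
  obtain ⟨e, he, hmax⟩ := Finset.exists_max_image (univ \ T) (fun d => toLex (H d, d)) hc
  have heT : e ∉ T := (Finset.mem_sdiff.mp he).2
  refine ⟨e, heT, ?_, ?_⟩
  · intro d hd f hf
    rw [Finset.mem_insert, not_or] at hf
    rcases Finset.mem_insert.mp hd with rfl | hd
    · exact lt_of_le_of_ne (hmax f (by simp [hf.2])) (key_ne hf.1)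
    · exact hT d hd f hf.2
  · intro d hd
    exact val_le_of_key_le (hmax d (by simp [hd]))

lemma up_chain (M : Matroid E) (H : E → ℝ≥0∞) (k : ℕ) :
    ∃ T : Finset E, T.card ≤ k ∧ (T.card = k ∨ T = univ) ∧ IsUp H T ∧
      ∑ i ∈ Ico 1 (k + 1), tau M i H ≤ ∑ e ∈ T, H e := by
  induction k with
  | zero =>
    exact ⟨∅, by simp, Or.inl (by simp), fun e he => by simp at he, by simp⟩
  | succ k ih =>
    obtain ⟨T, h1, h2, h3, h4⟩ := ih
    rw [Finset.sum_Ico_succ_top (by omega : 1 ≤ k + 1)]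
    by_cases hT : T = univ
    · refine ⟨T, by omega, Or.inr hT, h3, ?_⟩
      have h0 : tau M (k + 1) H = 0 := by
        refine le_antisymm (tau_le fun I _ hc => ?_) zero_le
        exfalso
        have h5 : I.card ≤ T.card := by rw [hT]; exact Finset.card_le_univ I
        omega
      rw [h0, add_zero]
      exact h4
    · have hk : T.card = k := h2.resolve_right hT
      obtain ⟨e, heT, hup, hle⟩ := up_step h3 hT
      refine ⟨insert e T, ?_, Or.inl ?_, hup, ?_⟩
      · rw [Finset.card_insert_of_notMem heT]; omega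
      · rw [Finset.card_insert_of_notMem heT]; omega
      · rw [Finset.sum_insert heT, add_comm]
        refine add_le_add ?_ h4
        refine tau_le fun I _ hc => ?_
        have : ¬ I ⊆ T := fun hsub => by
          have := Finset.card_le_card hsub
          omega
        obtain ⟨d, hdI, hdT⟩ := Finset.not_subset.mp this
        exact (iInf₂_le d hdI).trans (hle d hdT)

lemma up_superset {H : E → ℝ≥0∞} {T : Finset E} (hT : IsUp H T) (k : ℕ) (hk : T.card ≤ k) :
    ∃ W : Finset E, T ⊆ W ∧ W.card ≤ k ∧ (W.card = k ∨ W = univ) ∧ IsUp H W := by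
  induction k, hk using Nat.le_induction with
  | base => exact ⟨T, Finset.Subset.refl _, le_rfl, Or.inl rfl, hT⟩
  | succ k hk ih =>
    obtain ⟨W, h1, h2, h3, h4⟩ := ih
    by_cases hW : W = univ
    · exact ⟨W, h1, by omega, Or.inr hW, h4⟩
    · have hc : W.card = k := h3.resolve_right hW
      obtain ⟨e, heW, hup, _⟩ := up_step h4 hW
      refine ⟨insert e W, h1.trans (Finset.subset_insert _ _), ?_, Or.inl ?_, hup⟩
      · rw [Finset.card_insert_of_notMem heW]; omega
      · rw [Finset.card_insert_of_notMem heW]; omega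

lemma top_elig_of_mem {g : ℕ} {H l : E → ℝ≥0∞} (hl : ∀ e, l e ≤ H e) {U T : Finset E}
    (hT : IsUp H T) (ht : T.card ≤ g / 2 - 1) {e : E} (heT : e ∈ T) (heU : e ∈ U) :
    topElig g (Sof H l U) (Vof H l U) e := by
  unfold topElig
  have hpos : 0 < T.card := Finset.card_pos.mpr ⟨e, heT⟩
  have hsub : (univ.filter fun f => toLex (Vof H l U e, e) < toLex (Sof H l U f, f)) ⊆ T.erase e := by
    intro f hf
    have hf' : toLex (Vof H l U e, e) < toLex (Sof H l U f, f) := by simpa using hf
    rw [Vof_of_mem heU] at hf'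
    have hfle : toLex (Sof H l U f, f) ≤ toLex (H f, f) := key_mono (Sof_le hl U f) f
    rw [Finset.mem_erase]
    constructor
    · rintro rfl
      rw [Sof_of_mem heU] at hf'
      exact absurd hf' (not_lt.mpr (key_mono (hl f) f))
    · by_contra hfT
      exact absurd (hT e heT f hfT) (not_lt.mpr (hf'.le.trans hfle))
  have := Finset.card_le_card hsub
  rw [Finset.card_erase_of_mem heT] at this
  omega

lemma count_of_good {g : ℕ} (hg2 : 2 ≤ g) {H l : E → ℝ≥0∞} (hl : ∀ e, l e ≤ H e)
    {U W : Finset E} (hW : IsUp H W) (hc : W.card ≤ g - 1) (hcase : W.card = g - 1 ∨ W = univ)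
    {e₀ : E} (he₀ : e₀ ∈ W) (hgood : (W.erase e₀).card ≤ 2 * ((W.erase e₀) \ U).card) :
    (univ.filter (topElig g (Sof H l U) (Vof H l U))).card < g := by
  have hsub : univ.filter (topElig g (Sof H l U) (Vof H l U)) ⊆ W := by
    intro e' he'
    have he'e : topElig g (Sof H l U) (Vof H l U) e' := by simpa using he'
    by_contra he'W
    have hWc : W.card = g - 1 := hcase.resolve_right (fun h => he'W (by simp [h]))
    have hQc : (W.erase e₀).card = g - 2 := by
      rw [Finset.card_erase_of_mem he₀]; omega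
    have hcount : g / 2 - 1 ≤ ((W.erase e₀) \ U).card := by omega
    have hsub2 : (W.erase e₀) \ U ⊆ univ.filter
        fun f => toLex (Vof H l U e', e') < toLex (Sof H l U f, f) := by
      intro f hf
      obtain ⟨hf1, hf2⟩ := Finset.mem_sdiff.mp hf
      have hfW : f ∈ W := (Finset.mem_erase.mp hf1).2
      simp only [mem_filter, mem_univ, true_and]
      rw [Sof_of_notMem hf2]
      exact lt_of_le_of_lt (key_mono (Vof_le hl U e') e') (hW f hfW e' he'W)
    have := Finset.card_le_card hsub2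
    unfold topElig at he'e
    omega
  have := Finset.card_le_card hsub
  omega

lemma level_top (M : Matroid E) {g : ℕ} (hg2 : 4 ≤ g) {H l : E → ℝ≥0∞} (hl : ∀ e, l e ≤ H e) :
    (2 ^ Fintype.card E : ℝ≥0∞) * ∑ k ∈ Ico 1 (g / 2), tau M k H ≤
      4 * ∑ U, Gtop g (Sof H l U) (Vof H l U) := by
  obtain ⟨T, hT1, _, hT3, hT4⟩ := up_chain M H (g / 2 - 1)
  have hsucc : g / 2 - 1 + 1 = g / 2 := by omega
  rw [hsucc] at hT4
  obtain ⟨W, hW0, hW1, hW2, hW3⟩ := up_superset hT3 (g - 1) (by omega)
  let fe : E → Finset E → ℝ≥0∞ := fun e U =>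
    if e ∈ U ∧ (W.erase e).card ≤ 2 * ((W.erase e) \ U).card then H e else 0
  have hone : ∀ e ∈ T, (2 ^ Fintype.card E : ℝ≥0∞) * H e ≤ 4 * ∑ U, fe e U := by
    intro e _
    refine avg_good (P := {e}) (Q := W.erase e) (by simp) (fe e) (H e) ?_
    intro U hU
    have he : e ∈ U := good_mem rfl hU
    show _ ≤ if e ∈ U ∧ (W.erase e).card ≤ 2 * ((W.erase e) \ U).card then H e else 0
    rw [if_pos ⟨he, hU.2⟩]
  have hpt : ∀ U, ∑ e ∈ T, fe e U ≤ Gtop g (Sof H l U) (Vof H l U) := by
    intro U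
    by_cases hex : ∃ e ∈ T, e ∈ U ∧ (W.erase e).card ≤ 2 * ((W.erase e) \ U).card
    · obtain ⟨e₀, he₀T, _, hgood⟩ := hex
      have hcount := count_of_good (g := g) (by omega) hl hW3 hW1 hW2 (hW0 he₀T) hgood
      unfold Gtop
      rw [if_pos hcount]
      calc ∑ e ∈ T, fe e U
          ≤ ∑ e ∈ T, if topElig g (Sof H l U) (Vof H l U) e then Vof H l U e else 0 := by
            refine Finset.sum_le_sum fun e heT => ?_
            show (if e ∈ U ∧ (W.erase e).card ≤ 2 * ((W.erase e) \ U).card then H e else 0) ≤ _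
            split_ifs with h1 h2
            · rw [Vof_of_mem h1.1]
            · exact absurd (top_elig_of_mem hl hT3 hT1 heT h1.1) h2
            · exact zero_le
            · exact le_rfl
        _ ≤ _ := Finset.sum_le_sum_of_subset (Finset.subset_univ T)
    · push Not at hex
      have : ∑ e ∈ T, fe e U = 0 := by
        refine Finset.sum_eq_zero fun e heT => ?_
        show (if e ∈ U ∧ (W.erase e).card ≤ 2 * ((W.erase e) \ U).card then H e else 0) = 0
        rw [if_neg]
        rintro ⟨h1, h2⟩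
        exact absurd h2 (not_le.mpr (hex e heT h1))
      rw [this]
      exact zero_le
  calc (2 ^ Fintype.card E : ℝ≥0∞) * ∑ k ∈ Ico 1 (g / 2), tau M k H
      ≤ (2 ^ Fintype.card E : ℝ≥0∞) * ∑ e ∈ T, H e := by gcongr
    _ = ∑ e ∈ T, (2 ^ Fintype.card E : ℝ≥0∞) * H e := by rw [Finset.mul_sum]
    _ ≤ ∑ e ∈ T, 4 * ∑ U, fe e U := Finset.sum_le_sum hone
    _ = 4 * ∑ U, ∑ e ∈ T, fe e U := by
        rw [← Finset.mul_sum, Finset.sum_comm]
    _ ≤ 4 * ∑ U, Gtop g (Sof H l U) (Vof H l U) := by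
        gcongr with U
        exact hpt U

end Vale.Agent.Lib.P331
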